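import Vale.Agent.P083.Grp

open scoped InnerProductSpace
open Filter Topology

set_option linter.unusedSectionVars false

namespace Vale.Agent.P083

variable {H : Type} [NormedAddCommGroup H] [InnerProductSpace ℂ H] [CompleteSpace H]

section tw
variable {G I : Type} [Group G] [Fintype I] (m : MonoAct G I)

/-- the twisted tensor product operator -/
noncomputable def tw (u : H →L[ℂ] H) (γ : G) :
    PiLp 2 (fun _ : I => H) →ₗ[ℂ] PiLp 2 (fun _ : I => H) where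
  toFun T := WithLp.toLp 2 (fun η =>
    (starRingEnd ℂ) (m.c γ (m.act γ⁻¹ η)) • u (T (m.act γ⁻¹ η)))
  map_add' T T' := by ext η; simp
  map_smul' a T := by ext η; simp [smul_comm a]

lemma tw_apply (u : H →L[ℂ] H) (γ : G) (T : PiLp 2 (fun _ : I => H)) (η : I) :
    tw m u γ T (m.act γ η) = (starRingEnd ℂ) (m.c γ η) • u (T η) := by
  show (starRingEnd ℂ) (m.c γ (m.act γ⁻¹ (m.act γ η))) • u (T (m.act γ⁻¹ (m.act γ η))) = _
  rw [m.act_inv]

lemma norm_conj_c (γ : G) (η : I) : ‖(starRingEnd ℂ) (m.c γ η)‖ = 1 := by simp [m.norm_c]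

lemma tw_le (u : H →L[ℂ] H) (γ : G) (T : PiLp 2 (fun _ : I => H)) :
    ‖tw m u γ T‖ ≤ ‖u‖ * ‖T‖ := by
  rw [← sq_le_sq₀ (by positivity) (by positivity), mul_pow, PiLp.norm_sq_eq_of_L2,
    PiLp.norm_sq_eq_of_L2, ← Equiv.sum_comp (m.act γ), Finset.mul_sum]
  refine Finset.sum_le_sum (fun η _ => ?_)
  rw [tw_apply, norm_smul, norm_conj_c, one_mul, ← mul_pow]
  exact pow_le_pow_left₀ (norm_nonneg _) (u.le_opNorm _) 2

lemma tw_sub (u u' : H →L[ℂ] H) (γ : G) (T : PiLp 2 (fun _ : I => H)) :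
    tw m u γ T - tw m u' γ T = tw m (u - u') γ T := by
  ext η
  obtain ⟨η, rfl⟩ := (m.act γ).surjective η
  rw [PiLp.sub_apply, tw_apply, tw_apply, tw_apply, sub_apply, smul_sub]

lemma tw_tw (u u' : H →L[ℂ] H) (γ γ' : G) (T : PiLp 2 (fun _ : I => H)) :
    tw m u γ (tw m u' γ' T) = tw m (u * u') (γ * γ') T := by
  ext η
  obtain ⟨η, rfl⟩ := (m.act (γ * γ')).surjective η
  rw [tw_apply, map_mul, Equiv.Perm.mul_apply, tw_apply, tw_apply, map_smul, smul_smul,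
    m.cocycle, map_mul, mul_apply_eq_comp]

lemma tw_one_apply (u : H →L[ℂ] H) (T : PiLp 2 (fun _ : I => H)) (η : I) :
    tw m u 1 T η = u (T η) := by
  have := tw_apply m u 1 T η
  rwa [map_one, Equiv.Perm.one_apply, m.c_one, map_one, one_smul] at this

lemma tw_one (T : PiLp 2 (fun _ : I => H)) : tw m 1 1 T = T := by
  ext η; rw [tw_one_apply]; rfl

lemma tw_inner (u : H →L[ℂ] H) (γ : G) (x y : PiLp 2 (fun _ : I => H)) :
    ⟪tw m u γ x, tw m u γ y⟫_ℂ = ⟪x, tw m (star u * u) 1 y⟫_ℂ := by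
  rw [PiLp.inner_apply, PiLp.inner_apply, ← Equiv.sum_comp (m.act γ)]
  refine Finset.sum_congr rfl (fun η _ => ?_)
  rw [tw_apply, tw_apply, tw_one_apply, inner_smul_left, inner_smul_right, ← mul_assoc,
    Complex.conj_conj, mul_comm (m.c γ η), m.conj_c_mul, one_mul, mul_apply_eq_comp,
    ContinuousLinearMap.star_eq_adjoint, ContinuousLinearMap.adjoint_inner_right]

lemma tw_def (u : H →L[ℂ] H) (γ : G) (T : PiLp 2 (fun _ : I => H)) :
    ‖tw m u γ T - T‖ ^ 2 = ∑ η, ‖u (T η) - m.c γ η • T (m.act γ η)‖ ^ 2 := by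
  rw [PiLp.norm_sq_eq_of_L2, ← Equiv.sum_comp (m.act γ)]
  refine Finset.sum_congr rfl (fun η _ => ?_)
  rw [PiLp.sub_apply, tw_apply, ← one_mul ‖u (T η) - _‖, ← norm_conj_c m γ η, ← norm_smul,
    smul_sub, smul_smul, m.conj_c_mul, one_smul]

end tw

lemma iso_lower {X : H →L[ℂ] H} {e : ℝ} (h : ‖star X * X - 1‖ ≤ e) (y : H) :
    (1 - e) * ‖y‖ ^ 2 ≤ ‖X y‖ ^ 2 := by
  have h1 : ⟪y, (star X * X - 1) y⟫_ℂ = ⟪X y, X y⟫_ℂ - ⟪y, y⟫_ℂ := by
    rw [sub_apply, inner_sub_right, mul_apply_eq_comp, ContinuousLinearMap.star_eq_adjoint,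
      ContinuousLinearMap.adjoint_inner_right]; rfl
  have h2 : |(⟪y, (star X * X - 1) y⟫_ℂ).re| ≤ ‖y‖ * (e * ‖y‖) :=
    (Complex.abs_re_le_norm _).trans ((norm_inner_le_norm _ _).trans (mul_le_mul_of_nonneg_left
      (((star X * X - 1).le_opNorm y).trans (mul_le_mul_of_nonneg_right h (norm_nonneg _)))
      (norm_nonneg _)))
  have h3 : (⟪y, y⟫_ℂ).re = ‖y‖ ^ 2 := inner_self_eq_norm_sq (𝕜 := ℂ) y
  have h4 : (⟪X y, X y⟫_ℂ).re = ‖X y‖ ^ 2 := inner_self_eq_norm_sq (𝕜 := ℂ) _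
  rw [h1, Complex.sub_re, h3, h4] at h2
  have := neg_abs_le (‖X y‖ ^ 2 - ‖y‖ ^ 2)
  nlinarith

lemma iso_upper {X : H →L[ℂ] H} {e : ℝ} (h : ‖star X * X - 1‖ ≤ e) : ‖X‖ ≤ 1 + e := by
  have he : 0 ≤ e := (norm_nonneg _).trans h
  have h1 : ‖(1 : H →L[ℂ] H)‖ ≤ 1 := ContinuousLinearMap.norm_id_le
  have h2 := norm_sub_norm_le (star X * X) 1
  rw [CStarRing.norm_star_mul_self] at h2
  rw [← sq_le_sq₀ (by positivity) (by positivity)]
  nlinarith

/-- the defect of a family of vectors -/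
noncomputable def Df (u : Gam → H →L[ℂ] H) (k : ℕ) (T : L k → H) : ℝ :=
  ∑ i, ∑ b : ZMod 17, ∑ η,
    ‖u (gen i ^ b.val) (T η) - (mL k).c (gen i ^ b.val) η • T ((mL k).act (gen i ^ b.val) η)‖ ^ 2

/-- approximate containment of a level -/
def Good (u : Gam → H →L[ℂ] H) (k : ℕ) : Prop :=
  ∃ T : L k → H, 0 < ∑ η, ‖T η‖ ^ 2 ∧ Df u k T ≤ (1 / 1000000) * ∑ η, ‖T η‖ ^ 2

lemma good_zero (u : Gam → H →L[ℂ] H) (V : H →L[ℂ] H) {ξ : H} (hξ : ‖ξ‖ = 1)
    (h1 : ‖star V * V - 1‖ ≤ 1 / 2)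
    (h2 : ∀ i (b : ZMod 17), ‖u (gen i ^ b.val) * V - mOm.c (gen i ^ b.val) om0.1 • V‖
      ≤ 1 / 100000) : Good u 0 := by
  have h3 := iso_lower h1 ξ
  rw [hξ] at h3
  refine ⟨fun _ => V ξ, ?_, ?_⟩
  · rw [Fintype.sum_unique]; linarith
  · have : Df u 0 (fun _ => V ξ) ≤ ∑ _i : Fin 4, ∑ _b : ZMod 17, ((1 : ℝ) / 100000) ^ 2 := by
      refine Finset.sum_le_sum (fun i _ => Finset.sum_le_sum (fun b _ => ?_))
      rw [Fintype.sum_unique]
      refine pow_le_pow_left₀ (norm_nonneg _) ?_ 2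
      have := (u (gen i ^ b.val) * V - mOm.c (gen i ^ b.val) om0.1 • V).le_opNorm ξ
      rw [hξ, mul_one] at this
      exact this.trans (h2 i b)
    simp only [Finset.sum_const, Finset.card_univ, ZMod.card, Fintype.card_fin,
      nsmul_eq_mul] at this
    rw [Fintype.sum_unique]
    push_cast at this
    linarith

lemma step_est (u : Gam → H →L[ℂ] H) (J : ZMod 17 → H →L[ℂ] H) {e : ℝ}
    (hu : ∀ i (b : ZMod 17), ‖u (gen i ^ b.val)‖ ≤ 2) (hJ : ∀ c, ‖J c‖ ≤ 2)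
    (i i' : Fin 4) (b b' c c' a : ZMod 17) (φ : ℂ) (hφ : ‖φ‖ = 1)
    (hR : ‖(u (gen i ^ b.val) * J c - φ • (J c' * u (gen i' ^ b'.val)))
      * ∑ b : ZMod 17, ψ (-(b * a)) • u (gen 3 ^ b.val)‖ ≤ e)
    (y z : H) (D : ℝ) (h1 : ∑ b : ZMod 17, ‖u (gen 3 ^ b.val) y - ψ (b * a) • y‖ ^ 2 ≤ D)
    (h2 : ‖u (gen i' ^ b'.val) y - z‖ ^ 2 ≤ D) :
    ‖u (gen i ^ b.val) (J c y) - φ • J c' z‖ ^ 2 ≤ 2 * e ^ 2 * ‖y‖ ^ 2 + 24 * D := by
  set R := u (gen i ^ b.val) * J c - φ • (J c' * u (gen i' ^ b'.val)) with hRdef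
  set F := ∑ b : ZMod 17, ψ (-(b * a)) • u (gen 3 ^ b.val) with hF
  have he : 0 ≤ e := (norm_nonneg _).trans hR
  have nR : ‖R‖ ≤ 8 := by
    refine (norm_sub_le _ _).trans ?_
    rw [norm_smul, hφ, one_mul]
    have a1 := (norm_mul_le _ _).trans (mul_le_mul (hu i b) (hJ c) (norm_nonneg _) (by norm_num))
    have a2 := (norm_mul_le _ _).trans
      (mul_le_mul (hJ c') (hu i' b') (norm_nonneg _) (by norm_num))
    linarith
  have e1 : u (gen i ^ b.val) (J c y) - φ • J c' z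
      = R y + φ • J c' (u (gen i' ^ b'.val) y - z) := by
    simp only [hRdef, sub_apply, smul_apply, mul_apply_eq_comp, map_sub, smul_sub]; abel
  have e2 : (17 : ℂ) • y - F y = ∑ b : ZMod 17, (y - ψ (-(b * a)) • u (gen 3 ^ b.val) y) := by
    rw [Finset.sum_sub_distrib, Finset.sum_const, Finset.card_univ, ZMod.card, hF, sum_apply,
      ← Nat.cast_smul_eq_nsmul ℂ]
    rfl
  have e3 : ‖(17 : ℂ) • y - F y‖ ^ 2 ≤ 17 * D := by
    have a1 := norm_sum_le Finset.univ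
      (fun b : ZMod 17 => y - ψ (-(b * a)) • u (gen 3 ^ b.val) y)
    have a2 := sq_sum_le_card_mul_sum_sq (s := Finset.univ)
      (f := fun b : ZMod 17 => ‖y - ψ (-(b * a)) • u (gen 3 ^ b.val) y‖)
    have a3 : ∀ b : ZMod 17, ‖y - ψ (-(b * a)) • u (gen 3 ^ b.val) y‖
        = ‖u (gen 3 ^ b.val) y - ψ (b * a) • y‖ := fun b => by
      rw [← one_mul ‖y - _‖, ← norm_ψ (b * a), ← norm_smul, smul_sub, smul_smul,
        ← AddChar.map_add_eq_mul, add_neg_cancel, AddChar.map_zero_eq_one, one_smul,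
        norm_sub_rev]
    rw [Finset.card_univ, ZMod.card] at a2
    simp only [a3] at a1 a2
    rw [e2]
    have a4 := pow_le_pow_left₀ (norm_nonneg _) a1 2
    push_cast at a2
    linarith
  have e4 : 17 * ‖R y‖ ≤ e * ‖y‖ + 8 * ‖(17 : ℂ) • y - F y‖ := by
    have a1 : (17 : ℂ) • R y = (R * F) y + R ((17 : ℂ) • y - F y) := by
      rw [map_sub, map_smul, mul_apply_eq_comp]; abel
    have a2 := congrArg norm a1
    rw [norm_smul, Complex.norm_ofNat] at a2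
    rw [a2]
    exact (norm_add_le _ _).trans (add_le_add
      (((R * F).le_opNorm y).trans (mul_le_mul_of_nonneg_right hR (norm_nonneg _)))
      ((R.le_opNorm _).trans (mul_le_mul_of_nonneg_right nR (norm_nonneg _))))
  have e5 : ‖φ • J c' (u (gen i' ^ b'.val) y - z)‖ ≤ 2 * ‖u (gen i' ^ b'.val) y - z‖ := by
    rw [norm_smul, hφ, one_mul]
    exact ((J c').le_opNorm _).trans (mul_le_mul_of_nonneg_right (hJ c') (norm_nonneg _))
  have e6 := norm_add_le (R y) (φ • J c' (u (gen i' ^ b'.val) y - z))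
  rw [e1]
  have e7 : ‖R y‖ ^ 2 ≤ e ^ 2 * ‖y‖ ^ 2 + 8 * D := by
    have a1 := pow_le_pow_left₀ (by positivity) e4 2
    nlinarith [sq_nonneg (e * ‖y‖ - 8 * ‖(17 : ℂ) • y - F y‖), sq_nonneg (e * ‖y‖)]
  have e8 := pow_le_pow_left₀ (norm_nonneg _) (e6.trans (add_le_add le_rfl e5)) 2
  nlinarith [sq_nonneg (‖R y‖ - 2 * ‖u (gen i' ^ b'.val) y - z‖)]

lemma good_succ (u : Gam → H →L[ℂ] H) (J : ZMod 17 → H →L[ℂ] H)
    (hu : ∀ i (b : ZMod 17), ‖u (gen i ^ b.val)‖ ≤ 2)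
    (hJ : ∀ c, ‖star (J c) * J c - 1‖ ≤ 1 / 2)
    (hR : ∀ (i : Fin 4) (b c a : ZMod 17), ∃ (i' : Fin 4) (b' c' : ZMod 17) (φ : ℂ),
      (∀ η : Om, η 0 = a →
        mOm.act (gen i ^ b.val) (cons c η) = cons c' (mOm.act (gen i' ^ b'.val) η) ∧
        mOm.c (gen i ^ b.val) (cons c η) = φ * mOm.c (gen i' ^ b'.val) η) ∧
      ‖(u (gen i ^ b.val) * J c - φ • (J c' * u (gen i' ^ b'.val)))
        * ∑ b : ZMod 17, ψ (-(b * a)) • u (gen 3 ^ b.val)‖ ≤ 1 / 100000)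
    (k : ℕ) (S : L k → H) (hS : 1 / 4 ≤ ∑ η, ‖S η‖ ^ 2) (hD : Df u k S ≤ 1 / 100000000000) :
    Good u (k + 1) := by
  let T : L (k + 1) → H := fun η => J ((consL k).symm η).1 (S ((consL k).symm η).2)
  have hT : ∀ c η, T (consL k (c, η)) = J c (S η) := fun c η => by simp [T]
  set N := ∑ η, ‖S η‖ ^ 2 with hN
  have n1 : 17 * ((1 / 2) * N) ≤ ∑ η, ‖T η‖ ^ 2 := by
    rw [← Equiv.sum_comp (consL k), Fintype.sum_prod_type]
    refine le_trans (le_of_eq ?_) (Finset.sum_le_sum (fun c _ => Finset.sum_le_sum (fun η _ =>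
      (iso_lower (hJ c) (S η)).trans_eq (by rw [hT]))))
    simp only [← Finset.mul_sum, ← hN, Finset.sum_const, Finset.card_univ, ZMod.card,
      nsmul_eq_mul]
    push_cast; ring
  let d : Fin 4 → ZMod 17 → L k → ℝ := fun i b η =>
    ‖u (gen i ^ b.val) (S η) - (mL k).c (gen i ^ b.val) η • S ((mL k).act (gen i ^ b.val) η)‖ ^ 2
  let D : L k → ℝ := fun η => ∑ i, ∑ b, d i b η
  have d0 : ∀ i b η, 0 ≤ d i b η := fun _ _ _ => sq_nonneg _
  have d1 : ∀ i η, ∑ b, d i b η ≤ D η := fun i η =>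
    Finset.single_le_sum (f := fun i => ∑ b, d i b η)
      (fun _ _ => Finset.sum_nonneg (fun _ _ => d0 _ _ _)) (Finset.mem_univ i)
  have d2 : ∀ i b η, d i b η ≤ D η := fun i b η =>
    (Finset.single_le_sum (f := fun b => d i b η) (fun _ _ => d0 _ _ _)
      (Finset.mem_univ b)).trans (d1 i η)
  have d3 : ∑ η, D η = Df u k S := by
    rw [Df, Finset.sum_comm]
    exact Finset.sum_congr rfl (fun i _ => Finset.sum_comm)
  have key : ∀ (i : Fin 4) (b c : ZMod 17) (η : L k),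
      ‖u (gen i ^ b.val) (T (consL k (c, η))) - (mL (k + 1)).c (gen i ^ b.val) (consL k (c, η))
        • T ((mL (k + 1)).act (gen i ^ b.val) (consL k (c, η)))‖ ^ 2
      ≤ 2 * (1 / 100000) ^ 2 * ‖S η‖ ^ 2 + 24 * D η := by
    intro i b c η
    obtain ⟨i', b', c', φ, h1, h2⟩ := hR i b c (η.1 0)
    obtain ⟨h3, h4⟩ := h1 η.1 rfl
    have hφ : ‖φ‖ = 1 := by
      have := congrArg norm h4
      rwa [norm_mul, mOm.norm_c, mOm.norm_c, mul_one, eq_comm] at this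
    have h5 : (mL (k + 1)).act (gen i ^ b.val) (consL k (c, η))
        = consL k (c', (mL k).act (gen i' ^ b'.val) η) := Subtype.ext h3
    rw [h5, hT, hT, mL_c, consL_val, h4, mul_smul, ← map_smul]
    refine step_est u J hu (fun c => (iso_upper (hJ c)).trans (by norm_num)) i i' b b' c c'
      (η.1 0) φ hφ h2 _ _ _ (le_trans (le_of_eq ?_) (d1 3 η)) (d2 i' b' η)
    refine Finset.sum_congr rfl (fun b _ => ?_)
    have h6 : (mL k).act (gen 3 ^ b.val) η = η := Subtype.ext (tau_act _ _)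
    simp only [d]
    rw [h6, mL_c, tau_c]
  have n2 : Df u (k + 1) T ≤ 68 * (17 * (2 * (1 / 100000) ^ 2 * N + 24 * Df u k S)) := by
    rw [Df]
    refine le_trans (Finset.sum_le_sum (fun i _ => Finset.sum_le_sum (fun b _ =>
      show _ ≤ 17 * (2 * (1 / 100000) ^ 2 * N + 24 * Df u k S) from ?_))) (le_of_eq ?_)
    · rw [← Equiv.sum_comp (consL k), Fintype.sum_prod_type]
      refine le_trans (Finset.sum_le_sum (fun c _ => Finset.sum_le_sum (fun η _ =>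
        key i b c η))) (le_of_eq ?_)
      simp only [Finset.sum_add_distrib, ← Finset.mul_sum, ← hN, d3, Finset.sum_const,
        Finset.card_univ, ZMod.card, nsmul_eq_mul]
      push_cast; ring
    · simp only [Finset.sum_const, Finset.card_univ, ZMod.card, Fintype.card_fin, nsmul_eq_mul]
      push_cast; ring
  exact ⟨T, by linarith, by linarith⟩

/-- asymptotic form of the relations -/
structure Asym (ω : Ultrafilter ℕ) (U : ℕ → Gam → H →L[ℂ] H) (J : ℕ → ZMod 17 → H →L[ℂ] H)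
    (V : ℕ → H →L[ℂ] H) : Prop where
  bdd : ∀ γ, ∃ C : ℝ, ∀ j, ‖U j γ‖ ≤ C
  mul : ∀ γ γ', Tendsto (fun j => ‖U j (γ * γ') - U j γ * U j γ'‖) ω (𝓝 0)
  one : Tendsto (fun j => ‖U j 1 - 1‖) ω (𝓝 0)
  iso : ∀ γ, Tendsto (fun j => ‖star (U j γ) * U j γ - 1‖) ω (𝓝 0)
  isoJ : ∀ c, Tendsto (fun j => ‖star (J j c) * J j c - 1‖) ω (𝓝 0)
  isoV : Tendsto (fun j => ‖star (V j) * V j - 1‖) ω (𝓝 0)
  base : ∀ γ, Tendsto (fun j => ‖U j γ * V j - mOm.c γ om0.1 • V j‖) ω (𝓝 0)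
  step : ∀ (γ γ' : Gam) (c c' a : ZMod 17) (φ : ℂ), (∀ η : Om, η 0 = a →
    mOm.act γ (cons c η) = cons c' (mOm.act γ' η) ∧ mOm.c γ (cons c η) = φ * mOm.c γ' η) →
    Tendsto (fun j => ‖(U j γ * J j c - φ • (J j c' * U j γ'))
      * ∑ b : ZMod 17, ψ (-(b * a)) • U j (gen 3 ^ b.val)‖) ω (𝓝 0)

lemma ev_le {ω : Filter ℕ} {f : ℕ → ℝ} (h : Tendsto f ω (𝓝 0)) {e : ℝ} (he : 0 < e) :
    ∀ᶠ j in ω, f j ≤ e := (h.eventually (gt_mem_nhds he)).mono (fun _ h => h.le)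

theorem core {ω : Ultrafilter ℕ} {U : ℕ → Gam → H →L[ℂ] H} {J : ℕ → ZMod 17 → H →L[ℂ] H}
    {V : ℕ → H →L[ℂ] H} (h : Asym ω U J V) {ξ : H} (hξ : ‖ξ‖ = 1) :
    ∀ᶠ j in (ω : Filter ℕ), ∀ k, Good (U j) k := by
  by_contra hcon
  rw [← Ultrafilter.eventually_not] at hcon
  have g0 : ∀ᶠ j in (ω : Filter ℕ), Good (U j) 0 := by
    filter_upwards [ev_le h.isoV (show (0 : ℝ) < 1 / 2 by norm_num),
      eventually_all.2 (fun i : Fin 4 => eventually_all.2 (fun b : ZMod 17 =>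
        ev_le (h.base (gen i ^ b.val)) (show (0 : ℝ) < 1 / 100000 by norm_num)))] with j h1 h2
    exact good_zero _ _ hξ h1 h2
  have g1 : ∀ᶠ j in (ω : Filter ℕ), ∃ k, Good (U j) k ∧ ¬Good (U j) (k + 1) := by
    filter_upwards [hcon, g0] with j h1 h2
    by_contra h3
    push Not at h3
    exact h1 (fun k => Nat.rec h2 h3 k)
  obtain ⟨k, hk⟩ := g1.choice
  have hD : ∀ j (T : PiLp 2 (fun _ : L (k j) => H)), ∑ i, ∑ b : ZMod 17,
      ‖tw (mL (k j)) (U j (gen i ^ b.val)) (gen i ^ b.val) T - T‖ ^ 2 = Df (U j) (k j) T := by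
    intro j T
    simp only [tw_def, Df]
  have exT : ∀ j, ∃ T : PiLp 2 (fun _ : L (k j) => H), ‖T‖ ≤ 1 ∧
      (Good (U j) (k j) → ‖T‖ = 1 ∧ Df (U j) (k j) T ≤ 1 / 200) := by
    intro j
    by_cases hg : Good (U j) (k j)
    · obtain ⟨T, h1, h2⟩ := hg
      let T' : PiLp 2 (fun _ : L (k j) => H) := WithLp.toLp 2 T
      have n1 : ‖T'‖ ^ 2 = ∑ η, ‖T η‖ ^ 2 := PiLp.norm_sq_eq_of_L2 _ _
      have n2 : 0 < ‖T'‖ := by
        rw [← n1] at h1
        exact lt_of_le_of_ne (norm_nonneg _) (fun h0 => by simp [← h0] at h1)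
      have n3 : ‖((‖T'‖⁻¹ : ℝ) : ℂ) • T'‖ = 1 := by
        rw [norm_smul, Complex.norm_real, norm_inv, norm_norm, inv_mul_cancel₀ n2.ne']
      refine ⟨((‖T'‖⁻¹ : ℝ) : ℂ) • T', n3.le, fun _ => ⟨n3, ?_⟩⟩
      have n4 : Df (U j) (k j) T' ≤ (1 / 1000000) * ‖T'‖ ^ 2 := by rw [n1]; exact h2
      rw [← hD] at n4 ⊢
      simp only [map_smul, ← smul_sub, norm_smul, mul_pow, ← Finset.mul_sum, Complex.norm_real,
        norm_inv, norm_norm]
      rw [inv_pow, inv_mul_le_iff₀ (by positivity)]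
      nlinarith [sq_nonneg ‖T'‖]
    · exact ⟨0, by simp, fun h => absurd h hg⟩
  choose T hT1 hT2 using exT
  have main := ultra_gap gens_gen ω (fun j => PiLp 2 (fun _ : L (k j) => H))
    (fun j γ => tw (mL (k j)) (U j γ) γ)
    (fun γ => by
      obtain ⟨C, hC⟩ := h.bdd γ
      exact ⟨C, (norm_nonneg _).trans (hC 0), fun j x =>
        (tw_le _ _ _ _).trans (mul_le_mul_of_nonneg_right (hC j) (norm_nonneg _))⟩)
    (fun γ γ' => ⟨_, h.mul γ γ', fun j x => by rw [tw_tw, tw_sub]; exact tw_le _ _ _ _⟩)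
    (fun γ => ⟨_, h.iso γ, fun j x y => by
      rw [tw_inner]
      nth_rewrite 2 [← tw_one (mL (k j)) y]
      rw [← inner_sub_right, tw_sub, mul_left_comm]
      exact (norm_inner_le_norm _ _).trans
        (mul_le_mul_of_nonneg_left (tw_le _ _ _ _) (norm_nonneg _))⟩)
    ⟨_, h.one, fun j x => by
      nth_rewrite 2 [← tw_one (mL (k j)) x]
      rw [tw_sub]; exact tw_le _ _ _ _⟩
    T hT1 (hk.mono (fun j hj => by rw [hD]; exact hT2 j hj.1))
    (show (0 : ℝ) < 1 / 100000000000 by norm_num)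
  have r1 : ∀ᶠ j in (ω : Filter ℕ), ∀ (i : Fin 4) (b c a : ZMod 17),
      ∃ (i' : Fin 4) (b' c' : ZMod 17) (φ : ℂ), (∀ η : Om, η 0 = a →
        mOm.act (gen i ^ b.val) (cons c η) = cons c' (mOm.act (gen i' ^ b'.val) η) ∧
        mOm.c (gen i ^ b.val) (cons c η) = φ * mOm.c (gen i' ^ b'.val) η) ∧
      ‖(U j (gen i ^ b.val) * J j c - φ • (J j c' * U j (gen i' ^ b'.val)))
        * ∑ b : ZMod 17, ψ (-(b * a)) • U j (gen 3 ^ b.val)‖ ≤ 1 / 100000 := by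
    simp only [eventually_all]
    intro i b c a
    obtain ⟨i', b', c', φ, h1⟩ := step_rel i b c a
    exact (ev_le (h.step _ _ c c' a φ h1) (show (0 : ℝ) < 1 / 100000 by norm_num)).mono
      (fun j hj => ⟨i', b', c', φ, h1, hj⟩)
  obtain ⟨j, ⟨⟨⟨h1, h2⟩, h3⟩, h4⟩, S, h5, h6⟩ := ((((hk.and r1).and
    (eventually_all.2 (fun c => ev_le (h.isoJ c) (show (0 : ℝ) < 1 / 2 by norm_num)))).and
    (eventually_all.2 (fun i : Fin 4 => eventually_all.2 (fun b : ZMod 17 =>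
        ev_le (h.iso (gen i ^ b.val)) (show (0 : ℝ) < 1 by norm_num))))).and main).exists
  refine h1.2 (good_succ (U j) (J j) (fun i b => (iso_upper (h4 i b)).trans (by norm_num)) h3 h2
    (k j) S ?_ (by rw [← hD]; exact h6))
  rw [← PiLp.norm_sq_eq_of_L2]
  nlinarith

end Vale.Agent.P083
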