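import Vale.Agent.P083.Rank

open scoped InnerProductSpace
open Filter Topology

set_option linter.unusedSectionVars false

namespace Vale.Agent.P083

/-- binary words of a given length -/
def words : ℕ → Finset (List Bool)
  | 0 => {[]}
  | m + 1 => (words m).image (List.cons false) ∪ (words m).image (List.cons true)

lemma mem_words : ∀ (m : ℕ) (l : List Bool), l ∈ words m ↔ l.length = m
  | 0, l => by simp [words]
  | m + 1, [] => by simp [words]
  | m + 1, b :: l => by cases b <;> simp [words, mem_words m l]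

lemma sum_words_succ {E : Type*} [AddCommMonoid E] (m : ℕ) (f : List Bool → E) :
    ∑ l ∈ words (m + 1), f l
      = ∑ l ∈ words m, f (false :: l) + ∑ l ∈ words m, f (true :: l) := by
  rw [words, Finset.sum_union, Finset.sum_image (by simp), Finset.sum_image (by simp)]
  rw [Finset.disjoint_left]
  intro l h1 h2
  obtain ⟨a, -, rfl⟩ := Finset.mem_image.1 h1
  obtain ⟨b, -, h⟩ := Finset.mem_image.1 h2
  simp at h

variable {H : Type*} [NormedAddCommGroup H] [InnerProductSpace ℂ H] [CompleteSpace H]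

/-- a pair of Cuntz isometries -/
structure Cuntz (H : Type*) [NormedAddCommGroup H] [InnerProductSpace ℂ H] [CompleteSpace H] where
  s : Bool → H →L[ℂ] H
  iso : ∀ b, star (s b) * s b = 1
  sum : s false * star (s false) + s true * star (s true) = 1

namespace Cuntz
variable (C : Cuntz H)

lemma orth01 : star (C.s true) * C.s false = 0 := by
  have h := congrArg (fun z => star (C.s false) * z * C.s false) C.sum
  simp only [mul_add, add_mul, mul_one, ← mul_assoc, C.iso, one_mul] at h
  rw [add_eq_left, mul_assoc] at h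
  rw [← CStarRing.star_mul_self_eq_zero_iff, star_mul, star_star, h]

lemma orth (b b' : Bool) : star (C.s b) * C.s b' = if b = b' then 1 else 0 := by
  have h := congrArg star C.orth01
  rw [star_mul, star_star, star_zero] at h
  cases b <;> cases b' <;> simp [C.iso, C.orth01, h]

lemma star_s_s (b b' : Bool) (x : H) :
    star (C.s b) (C.s b' x) = if b = b' then x else 0 := by
  rw [← mul_apply_eq_comp, C.orth]
  split_ifs <;> simp

lemma inner_s (b b' : Bool) (x y : H) :
    ⟪C.s b x, C.s b' y⟫_ℂ = if b = b' then ⟪x, y⟫_ℂ else 0 := by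
  rw [← ContinuousLinearMap.adjoint_inner_right, ← ContinuousLinearMap.star_eq_adjoint,
    C.star_s_s]
  split_ifs <;> simp

/-- the isometry attached to a word -/
def S (l : List Bool) : H →L[ℂ] H := (l.map C.s).prod

@[simp] lemma S_nil : C.S [] = 1 := rfl

lemma S_cons (b : Bool) (l : List Bool) : C.S (b :: l) = C.s b * C.S l := by simp [S]

lemma S_append (l l' : List Bool) : C.S (l ++ l') = C.S l * C.S l' := by simp [S]

lemma sum_S (m : ℕ) : ∑ l ∈ words m, C.S l * star (C.S l) = 1 := by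
  induction m with
  | zero => simp [words]
  | succ m ih =>
    have : ∀ b, ∑ l ∈ words m, C.S (b :: l) * star (C.S (b :: l)) = C.s b * star (C.s b) := by
      intro b
      calc _ = C.s b * (∑ l ∈ words m, C.S l * star (C.S l)) * star (C.s b) := by
            rw [Finset.mul_sum, Finset.sum_mul]
            simp only [S_cons, star_mul, mul_assoc]
        _ = _ := by rw [ih, mul_one]
    rw [sum_words_succ, this, this, C.sum]

lemma sum_S_norm (m : ℕ) (h : H) : ∑ l ∈ words m, ‖star (C.S l) h‖ ^ 2 = ‖h‖ ^ 2 := by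
  have := congrArg (fun z : H →L[ℂ] H => (⟪h, z h⟫_ℂ).re) (C.sum_S m)
  simp only [sum_apply, inner_sum, Complex.re_sum,
    one_apply_eq_self] at this
  rw [← inner_self_eq_norm_sq (𝕜 := ℂ) h, RCLike.re_to_complex, ← this]
  refine Finset.sum_congr rfl (fun l _ => ?_)
  rw [mul_apply_eq_comp, ← ContinuousLinearMap.adjoint_inner_left,
    ← ContinuousLinearMap.star_eq_adjoint]
  exact (inner_self_eq_norm_sq (𝕜 := ℂ) _).symm

/-- the block of the approximating map -/
noncomputable def β (ξ : H) (m m' : ℕ) (u : H →L[ℂ] H) : H →L[ℂ] H :=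
  ∑ κ ∈ words m, ∑ κ' ∈ words m', ⟪C.S κ ξ, u (C.S κ' ξ)⟫_ℂ • (C.S κ * star (C.S κ'))

lemma β_left (ξ : H) (m m' : ℕ) (u : H →L[ℂ] H) (b : Bool) :
    C.β ξ (m + 1) m' (C.s b * u) = C.s b * C.β ξ m m' u := by
  rw [β, β, sum_words_succ]
  simp only [S_cons, mul_apply_eq_comp, inner_s, Finset.mul_sum, mul_smul_comm,
    mul_assoc]
  cases b <;> simp

lemma β_right (ξ : H) (m m' : ℕ) (u : H →L[ℂ] H) (b : Bool) :
    C.β ξ m (m' + 1) (u * star (C.s b)) = C.β ξ m m' u * star (C.s b) := by
  rw [β, β]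
  simp only [sum_words_succ, S_cons, mul_apply_eq_comp, star_s_s, Finset.sum_mul,
    smul_mul_assoc, mul_assoc, star_mul]
  cases b <;> simp

lemma β_S_left (ξ : H) (m m' : ℕ) (u : H →L[ℂ] H) (μ : List Bool) :
    C.β ξ (m + μ.length) m' (C.S μ * u) = C.S μ * C.β ξ m m' u := by
  induction μ with
  | nil => simp
  | cons b μ ih => rw [S_cons, List.length_cons, ← add_assoc, mul_assoc, β_left, ih, mul_assoc]

lemma β_S_right (ξ : H) (m m' : ℕ) (u : H →L[ℂ] H) (ν : List Bool) :
    C.β ξ m (m' + ν.length) (u * star (C.S ν)) = C.β ξ m m' u * star (C.S ν) := by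
  induction ν with
  | nil => simp
  | cons b ν ih =>
    rw [S_cons, List.length_cons, ← add_assoc, star_mul, ← mul_assoc, β_right, ih, mul_assoc]

/-- almost wandering vectors -/
noncomputable def wv (ξ : H) : ℕ → H
  | 0 => C.s true ξ
  | M + 1 => C.s false (wv ξ M)

lemma wv_self {ξ : H} (hξ : ‖ξ‖ = 1) (M : ℕ) : ⟪C.wv ξ M, C.wv ξ M⟫_ℂ = 1 := by
  induction M with
  | zero => rw [wv, inner_s]; simp [hξ]
  | succ M ih => rw [wv, inner_s, if_pos rfl, ih]

lemma wv_lt (ξ : H) : ∀ M M' : ℕ, M < M' → ⟪C.wv ξ M, C.wv ξ M'⟫_ℂ = 0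
  | _, 0, h => absurd h (Nat.not_lt_zero _)
  | 0, M' + 1, _ => by simp [wv, inner_s]
  | M + 1, M' + 1, h => by
    rw [wv, wv, inner_s, if_pos rfl, wv_lt ξ M M' (by omega)]

lemma wv_S (ξ : H) (M' : ℕ) : ∀ (l : List Bool) (M : ℕ), l.length ≤ M → M < l.length + M' →
    ⟪C.wv ξ M, C.S l (C.wv ξ M')⟫_ℂ = 0
  | [], M, _, h => by simpa using C.wv_lt ξ M M' (by simpa using h)
  | b :: l, 0, h, _ => by simp at h
  | b :: l, M + 1, h, h' => by
    rw [wv, S_cons, mul_apply_eq_comp, inner_s,
      wv_S ξ M' l M (by simpa using h) (by simp at h'; omega)]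
    simp

lemma orthon {ξ : H} (hξ : ‖ξ‖ = 1) (M : ℕ) : ∀ l l' : List Bool, l.length ≤ M →
    l'.length ≤ M → ⟪C.S l (C.wv ξ M), C.S l' (C.wv ξ M)⟫_ℂ = if l = l' then 1 else 0
  | [], [], _, _ => by simpa using C.wv_self hξ M
  | [], b :: l, _, h => by simpa using C.wv_S ξ M (b :: l) M h (by simp)
  | b :: l, [], h, _ => by
    rw [← inner_conj_symm, S_nil, one_apply_eq_self, C.wv_S ξ M (b :: l) M h (by simp)]
    simp
  | b :: l, b' :: l', h, h' => by
    rw [S_cons, S_cons, mul_apply_eq_comp, mul_apply_eq_comp, inner_s,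
      orthon hξ M l l' (by simp at h; omega) (by simp at h'; omega)]
    by_cases h1 : b = b' <;> simp [h1]

lemma β_one {ξ : H} (hξ : ‖ξ‖ = 1) {M m m' : ℕ} (hm : m ≤ M) (hm' : m' ≤ M) :
    C.β (C.wv ξ M) m m' 1 = if m = m' then 1 else 0 := by
  classical
  rw [β]
  have : ∀ κ ∈ words m, ∑ κ' ∈ words m', ⟪C.S κ (C.wv ξ M), (1 : H →L[ℂ] H) (C.S κ' (C.wv ξ M))⟫_ℂ
      • (C.S κ * star (C.S κ')) = if m = m' then C.S κ * star (C.S κ) else 0 := by
    intro κ hκ
    rw [mem_words] at hκ
    rw [Finset.sum_congr rfl (fun κ' hκ' => by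
      rw [one_apply_eq_self,
        C.orthon hξ M κ κ' (by omega) (by rw [mem_words] at hκ'; omega), ite_smul, one_smul,
        zero_smul]), Finset.sum_ite_eq]
    simp only [mem_words, hκ]
  rw [Finset.sum_congr rfl this]
  split_ifs
  · exact C.sum_S m
  · simp

/-- the approximating map -/
noncomputable def βN (ξ : H) (N : ℕ) (u : H →L[ℂ] H) : H →L[ℂ] H :=
  (N : ℂ)⁻¹ • ∑ i ∈ Finset.range N, ∑ i' ∈ Finset.range N,
    C.β (C.wv ξ (2 * N)) (N + i) (N + i') u

lemma βN_add (ξ : H) (N : ℕ) (u v : H →L[ℂ] H) :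
    C.βN ξ N (u + v) = C.βN ξ N u + C.βN ξ N v := by
  simp [βN, β, add_smul, Finset.sum_add_distrib]

lemma βN_smul (ξ : H) (N : ℕ) (c : ℂ) (u : H →L[ℂ] H) :
    C.βN ξ N (c • u) = c • C.βN ξ N u := by
  simp only [βN, β, smul_apply, inner_smul_right, mul_smul,
    ← Finset.smul_sum]
  rw [smul_comm]

/-- number of matching pairs of lengths -/
def cnt (N a b : ℕ) : ℕ :=
  ((Finset.range N ×ˢ Finset.range N).filter (fun p => p.1 + b = p.2 + a)).card

lemma cnt_le (N a b : ℕ) : cnt N a b ≤ N := by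
  conv_rhs => rw [← Finset.card_range N]
  refine Finset.card_le_card_of_injOn Prod.fst (fun p hp => ?_) (fun p hp q hq h => ?_)
  · simp at hp ⊢; omega
  · simp at hp hq h; ext <;> omega

lemma le_cnt (N a b : ℕ) : N ≤ cnt N a b + (a + b) := by
  have : (Finset.range (N - (a + b))).card ≤ cnt N a b := by
    refine Finset.card_le_card_of_injOn (fun j => (j + a, j + b)) (fun p hp => ?_)
      (fun p hp q hq h => ?_)
    · simp at hp ⊢; omega
    · simp at h; omega
  rw [Finset.card_range] at this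
  omega

lemma cnt_tendsto (a b : ℕ) :
    Tendsto (fun N : ℕ => ((cnt N a b : ℝ) / N)) atTop (𝓝 1) := by
  have h1 : Tendsto (fun N : ℕ => 1 - ((a + b : ℕ) : ℝ) / N) atTop (𝓝 1) := by
    simpa using (tendsto_const_div_atTop_nhds_zero_nat ((a + b : ℕ) : ℝ)).const_sub 1
  refine tendsto_of_tendsto_of_tendsto_of_le_of_le' h1 tendsto_const_nhds ?_ ?_
  · filter_upwards [eventually_gt_atTop 0] with N hN
    have h2 : (0 : ℝ) < N := by exact_mod_cast hN
    have h3 : (N : ℝ) ≤ cnt N a b + ((a + b : ℕ) : ℝ) := by exact_mod_cast le_cnt N a b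
    rw [sub_le_iff_le_add, ← add_div, le_div_iff₀ h2]; linarith
  · filter_upwards [eventually_gt_atTop 0] with N hN
    have h2 : (0 : ℝ) < N := by exact_mod_cast hN
    rw [div_le_one h2]; exact_mod_cast cnt_le N a b

lemma βN_mono {ξ : H} (hξ : ‖ξ‖ = 1) (μ ν : List Bool) {N : ℕ} (h1 : μ.length ≤ N)
    (h2 : ν.length ≤ N) : C.βN ξ N (C.S μ * star (C.S ν))
      = (((cnt N μ.length ν.length : ℝ) / N : ℝ) : ℂ) • (C.S μ * star (C.S ν)) := by
  have : ∀ i ∈ Finset.range N, ∀ i' ∈ Finset.range N,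
      C.β (C.wv ξ (2 * N)) (N + i) (N + i') (C.S μ * star (C.S ν))
        = if i + ν.length = i' + μ.length then C.S μ * star (C.S ν) else 0 := by
    intro i hi i' hi'
    rw [Finset.mem_range] at hi hi'
    rw [show N + i = (N + i - μ.length) + μ.length by omega, β_S_left,
      show N + i' = (N + i' - ν.length) + ν.length by omega, ← one_mul (star (C.S ν)),
      β_S_right, C.β_one hξ (by omega) (by omega)]
    by_cases h : i + ν.length = i' + μ.length
    · rw [if_pos h, if_pos (by omega)]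
    · rw [if_neg h, if_neg (by omega)]; simp
  rw [βN, Finset.sum_congr rfl (fun i hi => Finset.sum_congr rfl (this i hi)),
    ← Finset.sum_product', ← Finset.sum_filter, Finset.sum_const, ← Nat.cast_smul_eq_nsmul ℂ,
    smul_smul, cnt]
  congr 1
  push_cast; ring

/-- the span of the standard monomials -/
noncomputable def poly : Submodule ℂ (H →L[ℂ] H) :=
  Submodule.span ℂ {p | ∃ μ ν, p = C.S μ * star (C.S ν)}

lemma βN_tendsto {ξ : H} (hξ : ‖ξ‖ = 1) {p : H →L[ℂ] H} (hp : p ∈ C.poly) :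
    Tendsto (fun N => C.βN ξ N p) atTop (𝓝 p) := by
  induction hp using Submodule.span_induction with
  | mem p hp =>
    obtain ⟨μ, ν, rfl⟩ := hp
    have h1 := ((Complex.continuous_ofReal.tendsto _).comp
      (cnt_tendsto μ.length ν.length)).smul_const (C.S μ * star (C.S ν))
    rw [Complex.ofReal_one, one_smul] at h1
    refine h1.congr' ?_
    filter_upwards [eventually_ge_atTop μ.length, eventually_ge_atTop ν.length] with N h1 h2
    rw [C.βN_mono hξ μ ν h1 h2]; rfl
  | zero => simp [βN, β]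
  | add p q _ _ hp hq => simpa [βN_add] using hp.add hq
  | smul c p _ hp => simpa [βN_smul] using hp.const_smul c

lemma s_mul_poly (b : Bool) {p : H →L[ℂ] H} (hp : p ∈ C.poly) :
    C.s b * p ∈ C.poly ∧ star (C.s b) * p ∈ C.poly := by
  induction hp using Submodule.span_induction with
  | mem p hp =>
    obtain ⟨μ, ν, rfl⟩ := hp
    refine ⟨Submodule.subset_span ⟨b :: μ, ν, by rw [S_cons, mul_assoc]⟩, ?_⟩
    cases μ with
    | nil => exact Submodule.subset_span ⟨[], ν ++ [b], by simp [S_append, S_cons]⟩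
    | cons b' μ =>
      rw [S_cons, ← mul_assoc, ← mul_assoc, C.orth]
      split_ifs
      · exact Submodule.subset_span ⟨μ, ν, by simp⟩
      · simp
  | zero => simp
  | add p q _ _ hp hq =>
    rw [mul_add, mul_add]; exact ⟨add_mem hp.1 hq.1, add_mem hp.2 hq.2⟩
  | smul c p _ hp =>
    rw [mul_smul_comm, mul_smul_comm]
    exact ⟨Submodule.smul_mem _ _ hp.1, Submodule.smul_mem _ _ hp.2⟩

lemma adjoin_le_poly {a : H →L[ℂ] H}
    (ha : a ∈ StarAlgebra.adjoin ℂ {C.s false, C.s true}) : a ∈ C.poly := by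
  have key : ∀ p ∈ C.poly, a * p ∈ C.poly ∧ star a * p ∈ C.poly := by
    induction ha using StarAlgebra.adjoin_induction with
    | mem x hx =>
      rcases hx with rfl | rfl
      · exact fun p hp => C.s_mul_poly _ hp
      · exact fun p hp => C.s_mul_poly _ hp
    | algebraMap r =>
      intro p hp
      rw [← algebraMap_star_comm, ← Algebra.smul_def, ← Algebra.smul_def]
      exact ⟨Submodule.smul_mem _ _ hp, Submodule.smul_mem _ _ hp⟩
    | add x y _ _ hx hy =>
      intro p hp
      rw [star_add, add_mul, add_mul]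
      exact ⟨add_mem (hx p hp).1 (hy p hp).1, add_mem (hx p hp).2 (hy p hp).2⟩
    | mul x y _ _ hx hy =>
      intro p hp
      rw [star_mul, mul_assoc, mul_assoc]
      exact ⟨(hx _ (hy p hp).1).1, (hy _ (hx p hp).2).2⟩
    | star x _ hx =>
      intro p hp
      rw [star_star]
      exact ⟨(hx p hp).2, (hx p hp).1⟩
  simpa using (key 1 (Submodule.subset_span ⟨[], [], by simp⟩)).1

end Cuntz

end Vale.Agent.P083
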