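import Mathlib

open Filter Topology
open scoped ENNReal

namespace Vale.Agent.P083

variable (B : Type) [CStarAlgebra B] [Nontrivial B] (ω : Ultrafilter ℕ)

/-- The algebra of norm-bounded sequences in `B`. -/
abbrev BoundedSeq : Type := lp (fun _ : ℕ => B) ∞

/-- The ideal of bounded sequences whose norms tend to zero along `ω`. -/
noncomputable def nullIdeal : TwoSidedIdeal (BoundedSeq B) :=
  TwoSidedIdeal.mk' {b | Tendsto (fun n => ‖b n‖) (ω : Filter ℕ) (𝓝 0)}
    (by simp)
    (fun {x y} hx hy => squeeze_zero (fun _ => norm_nonneg _) (fun n => norm_add_le (x n) (y n))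
      (by simpa using hx.add hy))
    (fun {x} hx => by simpa using hx)
    (fun {x y} hy => squeeze_zero (fun _ => norm_nonneg _)
      (fun n => (norm_mul_le (x n) (y n)).trans (mul_le_mul_of_nonneg_right
        (lp.norm_apply_le_norm ENNReal.top_ne_zero x n) (norm_nonneg _)))
      (by simpa using hy.const_mul ‖x‖))
    (fun {x y} hx => squeeze_zero (fun _ => norm_nonneg _)
      (fun n => (norm_mul_le (x n) (y n)).trans (mul_le_mul_of_nonneg_left
        (lp.norm_apply_le_norm ENNReal.top_ne_zero y n) (norm_nonneg _)))
      (by simpa using hx.mul_const ‖y‖))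

/-- The norm ultrapower: bounded sequences modulo the null ideal. -/
def Ultrapower : Type := (nullIdeal B ω).ringCon.Quotient

/-- The quotient ring structure. -/
noncomputable instance : Ring (Ultrapower B ω) :=
  RingCon.instRingQuotient (nullIdeal B ω).ringCon

/-- The quotient algebra structure. -/
noncomputable instance : Algebra ℂ (Ultrapower B ω) :=
  RingCon.instAlgebraQuotient (nullIdeal B ω).ringCon

/-- The involution on the ultrapower, induced by the coordinatewise involution. -/
noncomputable instance : Star (Ultrapower B ω) where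
  star := Quotient.map' (star : BoundedSeq B → BoundedSeq B) (fun x y h => by
    have h1 : x - y ∈ nullIdeal B ω := (TwoSidedIdeal.rel_iff _ _ _).1 h
    refine (TwoSidedIdeal.rel_iff _ _ _).2 ?_
    rw [nullIdeal, TwoSidedIdeal.mem_mk'] at h1 ⊢
    rw [← star_sub]
    exact Tendsto.congr (fun n => (norm_star ((x - y) n)).symm) h1)

/-- `s` and `t` are isometries with `s s* + t t* = 1` that generate `B` as a C*-algebra. -/
def IsCuntzGenerated (s t : B) : Prop :=
  star s * s = 1 ∧ star t * t = 1 ∧ s * star s + t * star t = 1 ∧
    (StarAlgebra.adjoin ℂ {s, t}).topologicalClosure = ⊤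

end Vale.Agent.P083
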