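import Vale.Agent.P083.Ultra

open scoped InnerProductSpace
open Filter Topology

namespace Vale.Agent.P083

section diag
variable {V H : Type*} [NormedAddCommGroup V] [InnerProductSpace ℂ V] [FiniteDimensional ℂ V]
  [NormedAddCommGroup H] [InnerProductSpace ℂ H] [CompleteSpace H]
  {ι κ : Type*} [Fintype ι] [Fintype κ]

omit [FiniteDimensional ℂ V] in
lemma diag_inner (f : OrthonormalBasis ι ℂ V) (Y : V →ₗ[ℂ] V) (β : ι → ℝ)
    (hY : ∀ i, Y (f i) = (β i : ℂ) • f i) (h : V) (i : ι) :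
    ⟪f i, Y h⟫_ℂ = (β i : ℂ) * ⟪f i, h⟫_ℂ := by
  classical
  conv_lhs => rw [← f.sum_repr' h]
  simp only [map_sum, map_smul, hY, inner_sum, inner_smul_right,
    orthonormal_iff_ite.1 f.orthonormal]
  rw [Finset.sum_eq_single i] <;> simp +contextual [mul_comm, eq_comm]

omit [FiniteDimensional ℂ V] in
lemma diag_norm (f : OrthonormalBasis ι ℂ V) (Y : V →ₗ[ℂ] V) (β : ι → ℝ)
    (hY : ∀ i, Y (f i) = (β i : ℂ) • f i) (h : V) :
    ‖Y h‖ ^ 2 = ∑ i, β i ^ 2 * ‖⟪f i, h⟫_ℂ‖ ^ 2 := by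
  rw [← f.sum_sq_norm_inner_right]
  refine Finset.sum_congr rfl (fun i _ => ?_)
  rw [diag_inner f Y β hY, norm_mul, mul_pow]; simp

omit [FiniteDimensional ℂ V] in
lemma diag_symm (f : OrthonormalBasis ι ℂ V) (Y : V →ₗ[ℂ] V) (β : ι → ℝ)
    (hY : ∀ i, Y (f i) = (β i : ℂ) • f i) : Y.IsSymmetric := by
  intro x y
  rw [← f.sum_inner_mul_inner, ← f.sum_inner_mul_inner]
  refine Finset.sum_congr rfl (fun i _ => ?_)
  rw [← inner_conj_symm (Y x), diag_inner f Y β hY, diag_inner f Y β hY]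
  simp; ring

omit [FiniteDimensional ℂ V] in
lemma diag_re (f : OrthonormalBasis ι ℂ V) (Y : V →ₗ[ℂ] V) (β : ι → ℝ)
    (hY : ∀ i, Y (f i) = (β i : ℂ) • f i) (h : V) :
    (⟪h, Y h⟫_ℂ).re = ∑ i, β i * ‖⟪f i, h⟫_ℂ‖ ^ 2 := by
  rw [← f.sum_inner_mul_inner, Complex.re_sum]
  refine Finset.sum_congr rfl (fun i _ => ?_)
  rw [diag_inner f Y β hY, ← inner_conj_symm h, mul_left_comm, Complex.conj_mul',
    Complex.re_ofReal_mul]
  norm_cast

lemma hs_eq (f : OrthonormalBasis ι ℂ V) (f' : OrthonormalBasis κ ℂ V) (X : V →ₗ[ℂ] H) :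
    ∑ i, ‖X (f i)‖ ^ 2 = ∑ i, ‖X (f' i)‖ ^ 2 := by
  let Y : V →L[ℂ] H := LinearMap.toContinuousLinearMap X
  let Z : V →ₗ[ℂ] V := (ContinuousLinearMap.adjoint Y ∘L Y : V →L[ℂ] V)
  have key : ∀ v, (⟪v, Z v⟫_ℂ).re = ‖X v‖ ^ 2 := by
    intro v
    have : ⟪v, Z v⟫_ℂ = ⟪X v, X v⟫_ℂ := ContinuousLinearMap.adjoint_inner_right Y v (Y v)
    rw [this]; exact inner_self_eq_norm_sq (𝕜 := ℂ) _
  simp_rw [← key, ← Complex.re_sum]
  rw [← LinearMap.trace_eq_sum_inner, ← LinearMap.trace_eq_sum_inner]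

lemma exists_sqrt (X : V →ₗ[ℂ] H) :
    ∃ (f : OrthonormalBasis (Fin (Module.finrank ℂ V)) ℂ V) (α : _ → ℝ) (A : V →ₗ[ℂ] V),
      (∀ i, 0 ≤ α i) ∧ (∀ i, A (f i) = (α i : ℂ) • f i) ∧ (∀ h, ‖A h‖ = ‖X h‖) ∧
      ∀ i j, i ≠ j → ⟪X (f i), X (f j)⟫_ℂ = 0 := by
  let Y : V →L[ℂ] H := LinearMap.toContinuousLinearMap X
  let Z : V →ₗ[ℂ] V := (ContinuousLinearMap.adjoint Y ∘L Y : V →L[ℂ] V)
  have key : ∀ v, (⟪v, Z v⟫_ℂ).re = ‖X v‖ ^ 2 := by
    intro v
    have : ⟪v, Z v⟫_ℂ = ⟪X v, X v⟫_ℂ := ContinuousLinearMap.adjoint_inner_right Y v (Y v)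
    rw [this]; exact inner_self_eq_norm_sq (𝕜 := ℂ) _
  have hZ : Z.IsSymmetric := (ContinuousLinearMap.isPositive_adjoint_comp_self Y).isSymmetric
  let f := hZ.eigenvectorBasis rfl
  let l := hZ.eigenvalues rfl
  have hf : ∀ i, Z (f i) = (l i : ℂ) • f i := hZ.apply_eigenvectorBasis rfl
  have hl : ∀ i, 0 ≤ l i := by
    intro i
    have := key (f i)
    rw [hf, inner_smul_right, inner_self_eq_norm_sq_to_K, f.orthonormal.1 i] at this
    simp at this
    rw [this]; positivity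
  let A : V →ₗ[ℂ] V := f.toBasis.constr ℂ (fun i => ((√(l i) : ℝ) : ℂ) • f i)
  have hA : ∀ i, A (f i) = ((√(l i) : ℝ) : ℂ) • f i := fun i =>
    f.toBasis.constr_basis ℂ _ i
  refine ⟨f, fun i => √(l i), A, fun i => Real.sqrt_nonneg _, hA, fun h => ?_, fun i j hij => ?_⟩
  · rw [← sq_eq_sq₀ (norm_nonneg _) (norm_nonneg _), diag_norm f A _ hA, ← key, diag_re f Z l hf]
    exact Finset.sum_congr rfl (fun i _ => by rw [Real.sq_sqrt (hl i)])
  · have : ⟪f i, Z (f j)⟫_ℂ = ⟪X (f i), X (f j)⟫_ℂ :=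
      ContinuousLinearMap.adjoint_inner_right Y (f i) (Y (f j))
    rw [← this, hf, inner_smul_right, f.orthonormal.2 hij, mul_zero]

/-- Powers-Stormer type inequality -/
lemma ps_ineq (A B : V →ₗ[ℂ] V) (hA : A.IsSymmetric) (hB : B.IsSymmetric)
    (hA' : ∀ h, 0 ≤ (⟪h, A h⟫_ℂ).re) (hB' : ∀ h, 0 ≤ (⟪h, B h⟫_ℂ).re) :
    ∃ f : OrthonormalBasis (Fin (Module.finrank ℂ V)) ℂ V,
      ∀ i, ‖(A - B) (f i)‖ ^ 2 ≤ |‖A (f i)‖ ^ 2 - ‖B (f i)‖ ^ 2| := by
  have hS : (A - B).IsSymmetric := hA.sub hB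
  refine ⟨hS.eigenvectorBasis rfl, fun i => ?_⟩
  have hf := hS.apply_eigenvectorBasis rfl i
  have hn := (hS.eigenvectorBasis rfl).orthonormal.1 i
  generalize hS.eigenvectorBasis rfl i = v at *
  generalize hS.eigenvalues rfl i = s at *
  have e1 : A v = B v + (s : ℂ) • v := by
    rw [← sub_eq_iff_eq_add']; exact hf
  have a1 := hA' v
  have b1 := hB' v
  rw [e1, inner_add_right, inner_smul_right, inner_self_eq_norm_sq_to_K, hn] at a1
  have e2 : ‖A v‖ ^ 2 = ‖B v‖ ^ 2 + 2 * s * (⟪v, B v⟫_ℂ).re + s ^ 2 := by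
    have e0 : (⟪B v, v⟫_ℂ).re = (⟪v, B v⟫_ℂ).re := inner_re_symm (𝕜 := ℂ) _ _
    rw [e1, @norm_add_sq ℂ, inner_smul_right, norm_smul, hn, ← e0]
    simp; ring
  have e3 : ‖(A - B) v‖ ^ 2 = s ^ 2 := by
    rw [hf, norm_smul, hn]; simp
  rw [e3, e2]
  simp at a1
  rcases le_total 0 s with hs | hs
  · refine le_trans ?_ (le_abs_self _); nlinarith
  · refine le_trans ?_ (neg_le_abs _); nlinarith

end diag

/-- a monomial action: a permutation action with a unimodular cocycle -/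
structure MonoAct (G X : Type*) [Group G] where
  act : G →* Equiv.Perm X
  c : G → X → ℂ
  norm_c : ∀ γ x, ‖c γ x‖ = 1
  cocycle : ∀ γ γ' x, c (γ * γ') x = c γ (act γ' x) * c γ' x

namespace MonoAct
variable {G X : Type*} [Group G] (m : MonoAct G X)

lemma c_ne (γ : G) (x : X) : m.c γ x ≠ 0 := by
  rw [← norm_ne_zero_iff, m.norm_c]; simp

lemma c_one (x : X) : m.c 1 x = 1 := by
  have := m.cocycle 1 1 x
  simp only [mul_one, map_one, Equiv.Perm.coe_one, id] at this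
  exact (mul_eq_left₀ (m.c_ne 1 x)).1 this.symm

lemma conj_c_mul (γ : G) (x : X) : (starRingEnd ℂ) (m.c γ x) * m.c γ x = 1 := by
  rw [Complex.conj_mul', m.norm_c]; simp

lemma act_inv (γ : G) (x : X) : m.act γ⁻¹ (m.act γ x) = x := by simp

lemma act_inv' (γ : G) (x : X) : m.act γ (m.act γ⁻¹ x) = x := by simp

lemma c_inv (γ : G) (x : X) : m.c γ⁻¹ (m.act γ x) = (starRingEnd ℂ) (m.c γ x) := by
  have h := m.cocycle γ⁻¹ γ x
  rw [inv_mul_cancel, m.c_one] at h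
  exact mul_right_cancel₀ (m.c_ne γ x) (by rw [← h, m.conj_c_mul])

/-- the conjugation action on matrix units -/
def ad : MonoAct G (X × X) where
  act :=
    { toFun := fun γ => Equiv.prodCongr (m.act γ) (m.act γ)
      map_one' := by ext <;> simp
      map_mul' := fun γ γ' => by ext <;> simp }
  c γ x := m.c γ x.1 * (starRingEnd ℂ) (m.c γ x.2)
  norm_c γ x := by simp [m.norm_c]
  cocycle γ γ' x := by simp [m.cocycle]; ring

/-- the underlying permutation action -/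
def perm : MonoAct G X where
  act := m.act
  c _ _ := 1
  norm_c _ _ := by simp
  cocycle _ _ _ := by simp

variable [Fintype X]

/-- the associated unitary representation -/
noncomputable def urep : URep G (EuclideanSpace ℂ X) where
  ρ :=
    { toFun := fun γ =>
        { toFun := fun f => WithLp.toLp 2 (fun x => m.c γ (m.act γ⁻¹ x) * f (m.act γ⁻¹ x))
          map_add' := fun f f' => by ext x; simp [mul_add]
          map_smul' := fun a f => by ext x; simp; ring }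
      map_one' := by ext f x; simp [m.c_one]
      map_mul' := fun γ γ' => by
        ext f x
        simp [m.cocycle, mul_assoc] }
  inner_map γ f f' := by
    simp only [PiLp.inner_apply]
    refine Fintype.sum_equiv (m.act γ⁻¹) _ _ (fun x => ?_)
    have := m.conj_c_mul γ (m.act γ⁻¹ x)
    simp only [MonoidHom.coe_mk, OneHom.coe_mk, LinearMap.coe_mk, AddHom.coe_mk, RCLike.inner_apply,
      map_mul]
    linear_combination (f' (m.act γ⁻¹ x) * (starRingEnd ℂ) (f (m.act γ⁻¹ x))) * this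

lemma urep_apply (γ : G) (f : EuclideanSpace ℂ X) (x : X) :
    m.urep.ρ γ f x = m.c γ (m.act γ⁻¹ x) * f (m.act γ⁻¹ x) := rfl

lemma urep_single [DecidableEq X] (γ : G) (x : X) :
    m.urep.ρ γ (EuclideanSpace.single x 1) = m.c γ x • EuclideanSpace.single (m.act γ x) 1 := by
  ext y
  rw [urep_apply]
  by_cases h : y = m.act γ x
  · subst h; simp
  · have : m.act γ⁻¹ y ≠ x := fun h' => h (by rw [← h']; simp)
    rw [PiLp.single_apply, if_neg this]
    simp [h]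

end MonoAct

lemma URep.inv_of_gens {G E : Type*} [Group G] [SeminormedAddCommGroup E] [InnerProductSpace ℂ E]
    (U : URep G E) {g : Fin 4 → G} (hgen : Subgroup.closure (Set.range g) = ⊤) (y : E)
    (hy : ∀ i, U.ρ (g i) y = y) (γ : G) : U.ρ γ y = y := by
  have hγ : γ ∈ Subgroup.closure (Set.range g) := by rw [hgen]; trivial
  induction hγ using Subgroup.closure_induction with
  | mem x hx => obtain ⟨i, rfl⟩ := hx; exact hy i
  | one => simp
  | mul x y _ _ hx hy => rw [map_mul, Module.End.mul_apply, hy, hx]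
  | inv x _ hx =>
    conv_lhs => rw [← hx]
    rw [← Module.End.mul_apply, ← map_mul]; simp

end Vale.Agent.P083
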