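import Mathlib

open scoped InnerProductSpace

namespace Vale.Agent.P083

instance fact17 : Fact (Nat.Prime 17) := ⟨by norm_num⟩

/-- A representation preserving a semi-inner product. -/
structure URep (G E : Type*) [Group G] [SeminormedAddCommGroup E] [InnerProductSpace ℂ E] where
  ρ : G →* Module.End ℂ E
  inner_map : ∀ g x y, ⟪ρ g x, ρ g y⟫_ℂ = ⟪x, y⟫_ℂ

/-- Heisenberg relation. -/
def Heis {G : Type*} [Group G] (a b : G) : Prop :=
  ∃ c, a * b = c * b * a ∧ Commute c a ∧ Commute c b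

section grp
variable {G : Type*} [Group G]

lemma pw_add {a : G} (ha : a ^ 17 = 1) (x y : ZMod 17) :
    a ^ (x + y).val = a ^ x.val * a ^ y.val := by
  rw [ZMod.val_add, ← pow_add, ← pow_eq_pow_mod _ ha]

lemma pw_mul {a : G} (ha : a ^ 17 = 1) (x y : ZMod 17) :
    a ^ (x * y).val = a ^ (x.val * y.val) := by
  rw [ZMod.val_mul, ← pow_eq_pow_mod _ ha]

lemma pw_neg {a : G} (ha : a ^ 17 = 1) (x : ZMod 17) :
    a ^ (-x).val = (a ^ x.val)⁻¹ := by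
  rw [eq_inv_iff_mul_eq_one, ← pw_add ha]; simp

lemma heis_pow1 {a b c : G} (h : a * b = c * b * a) (_ha : Commute c a) (hb : Commute c b)
    (n : ℕ) : a * b ^ n = c ^ n * b ^ n * a := by
  induction n with
  | zero => simp
  | succ n ih =>
    calc a * b ^ (n + 1) = (a * b ^ n) * b := by rw [pow_succ, mul_assoc]
      _ = c ^ n * b ^ n * (a * b) := by rw [ih]; simp [mul_assoc]
      _ = c ^ n * (b ^ n * c) * b * a := by rw [h]; simp [mul_assoc]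
      _ = c ^ n * (c * b ^ n) * b * a := by rw [(hb.pow_right n).eq]
      _ = c ^ (n + 1) * b ^ (n + 1) * a := by simp [pow_succ, mul_assoc]

lemma heis_pow {a b c : G} (h : a * b = c * b * a) (ha : Commute c a) (hb : Commute c b)
    (m n : ℕ) : a ^ m * b ^ n = c ^ (m * n) * b ^ n * a ^ m := by
  induction m with
  | zero => simp
  | succ m ih =>
    calc a ^ (m + 1) * b ^ n = a * (a ^ m * b ^ n) := by rw [pow_succ', mul_assoc]
      _ = (a * c ^ (m * n)) * b ^ n * a ^ m := by rw [ih]; simp [mul_assoc]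
      _ = c ^ (m * n) * (a * b ^ n) * a ^ m := by
          rw [← (ha.pow_left (m * n)).eq]; simp [mul_assoc]
      _ = c ^ ((m + 1) * n) * b ^ n * a ^ (m + 1) := by
          rw [heis_pow1 h ha hb, add_mul, one_mul, pow_add, pow_succ' a]; simp [mul_assoc]

lemma heis_order {a b c : G} (h : a * b = c * b * a) (ha : Commute c a) (hb : Commute c b)
    (h17 : a ^ 17 = 1) : c ^ 17 = 1 := by
  have := heis_pow h ha hb 17 1
  rw [h17] at this
  simpa using this.symm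

lemma Heis.symm {a b : G} (h : Heis a b) : Heis b a := by
  obtain ⟨c, h1, h2, h3⟩ := h
  refine ⟨c⁻¹, ?_, h3.inv_left, h2.inv_left⟩
  rw [mul_assoc, h1]; group

end grp

variable {G E : Type*} [Group G] [SeminormedAddCommGroup E] [InnerProductSpace ℂ E]

namespace URep
variable (U : URep G E)

lemma inner_left (g : G) (x y : E) : ⟪U.ρ g x, y⟫_ℂ = ⟪x, U.ρ g⁻¹ y⟫_ℂ := by
  rw [← U.inner_map g x, ← Module.End.mul_apply, ← map_mul]; simp

lemma norm_map (g : G) (x : E) : ‖U.ρ g x‖ = ‖x‖ := by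
  rw [@norm_eq_sqrt_re_inner ℂ, @norm_eq_sqrt_re_inner ℂ, U.inner_map]

/-- The average over the cyclic group generated by `a`. -/
noncomputable def P (a : G) : Module.End ℂ E :=
  (17 : ℂ)⁻¹ • ∑ b : ZMod 17, U.ρ (a ^ b.val)

lemma ρ_mul_P {a : G} (ha : a ^ 17 = 1) (x : ZMod 17) : U.ρ (a ^ x.val) * U.P a = U.P a := by
  unfold P
  rw [mul_smul_comm, Finset.mul_sum]
  congr 1
  refine Fintype.sum_equiv (Equiv.addLeft x) _ _ (fun b => ?_)
  rw [← map_mul, ← pw_add ha]; rfl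

lemma P_mul_ρ {a : G} (ha : a ^ 17 = 1) (x : ZMod 17) : U.P a * U.ρ (a ^ x.val) = U.P a := by
  unfold P
  rw [smul_mul_assoc, Finset.sum_mul]
  congr 1
  refine Fintype.sum_equiv (Equiv.addRight x) _ _ (fun b => ?_)
  rw [← map_mul, ← pw_add ha]; rfl

lemma avg_const (X : Module.End ℂ E) : (17 : ℂ)⁻¹ • ∑ _b : ZMod 17, X = X := by
  rw [Finset.sum_const, Finset.card_univ, ZMod.card, ← Nat.cast_smul_eq_nsmul ℂ, smul_smul]
  norm_num

lemma P_mul_P {a : G} (ha : a ^ 17 = 1) : U.P a * U.P a = U.P a := by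
  conv_lhs => rw [P, smul_mul_assoc, Finset.sum_mul]
  simp_rw [show ∀ b : ZMod 17, U.ρ (a ^ b.val) * ((17 : ℂ)⁻¹ • ∑ b : ZMod 17, U.ρ (a ^ b.val))
    = U.P a from fun b => U.ρ_mul_P ha b]
  exact avg_const _

lemma P_symm {a : G} (ha : a ^ 17 = 1) (x y : E) : ⟪U.P a x, y⟫_ℂ = ⟪x, U.P a y⟫_ℂ := by
  simp only [P, LinearMap.smul_apply, LinearMap.sum_apply, inner_smul_left, inner_smul_right,
    sum_inner, inner_sum]
  congr 1
  · simp [Complex.conj_ofNat]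
  · refine Fintype.sum_equiv (Equiv.neg _) _ _ (fun b => ?_)
    rw [U.inner_left, ← pw_neg ha]; rfl

lemma P_comm_ρ {c g : G} (h : Commute c g) : U.P c * U.ρ g = U.ρ g * U.P c := by
  unfold P
  rw [smul_mul_assoc, mul_smul_comm, Finset.sum_mul, Finset.mul_sum]
  congr 1
  refine Finset.sum_congr rfl (fun b _ => ?_)
  rw [← map_mul, ← map_mul, (h.pow_left _).eq]

lemma P_comm_P {c g : G} (h : Commute c g) : U.P c * U.P g = U.P g * U.P c := by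
  conv_lhs => rw [P.eq_1 U g]
  conv_rhs => rw [P.eq_1 U g]
  rw [smul_mul_assoc, mul_smul_comm, Finset.sum_mul, Finset.mul_sum]
  congr 1
  refine Finset.sum_congr rfl (fun b _ => ?_)
  exact U.P_comm_ρ (h.pow_right _)

lemma P_c_comm {a b c : G} (h : a * b = c * b * a) (hca : Commute c a) (hcb : Commute c b)
    (ha : a ^ 17 = 1) : U.P c * (U.P a * U.P b) = U.P c * (U.P b * U.P a) := by
  have hc := heis_order h hca hcb ha
  have key : ∀ x y : ZMod 17, U.P c * (U.ρ (a ^ x.val) * U.ρ (b ^ y.val))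
      = U.P c * (U.ρ (b ^ y.val) * U.ρ (a ^ x.val)) := by
    intro x y
    rw [← map_mul, heis_pow h hca hcb, ← pw_mul hc, mul_assoc, map_mul, ← mul_assoc,
      U.P_mul_ρ hc, map_mul]
  conv_lhs => rw [P.eq_1 U a, P.eq_1 U b]
  conv_rhs => rw [P.eq_1 U a, P.eq_1 U b]
  simp only [smul_mul_assoc, mul_smul_comm, Finset.sum_mul, Finset.mul_sum, key]
  simp_rw [Finset.smul_sum]
  rw [Finset.sum_comm]

lemma PbP {a b c : G} (h : a * b = c * b * a) (hca : Commute c a) (hcb : Commute c b)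
    (ha : a ^ 17 = 1) (y : ZMod 17) (hy : y ≠ 0) :
    U.P a * U.ρ (b ^ y.val) * U.P a = U.P c * (U.P a * U.ρ (b ^ y.val) * U.P a) := by
  have hc := heis_order h hca hcb ha
  have key : ∀ x : ZMod 17, U.P a * U.ρ (b ^ y.val) * U.P a
      = U.ρ (c ^ (x * y).val) * (U.P a * U.ρ (b ^ y.val) * U.P a) := by
    intro x
    calc U.P a * U.ρ (b ^ y.val) * U.P a
        = U.P a * (U.ρ (a ^ x.val) * U.ρ (b ^ y.val)) * U.P a := by
          rw [← mul_assoc, U.P_mul_ρ ha]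
      _ = U.P a * U.ρ (c ^ (x * y).val) * U.ρ (b ^ y.val) * (U.ρ (a ^ x.val) * U.P a) := by
          rw [← map_mul, heis_pow h hca hcb, ← pw_mul hc, map_mul, map_mul]
          simp only [mul_assoc]
      _ = _ := by
          rw [U.ρ_mul_P ha, U.P_comm_ρ (hca.symm.pow_right _)]
          simp only [mul_assoc]
  conv_rhs => rw [P.eq_1 U c, smul_mul_assoc, Finset.sum_mul]
  rw [← avg_const (U.P a * U.ρ (b ^ y.val) * U.P a)]
  congr 1
  symm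
  refine Fintype.sum_equiv (Equiv.mulRight₀ y hy).symm _ _ (fun x => ?_)
  rw [avg_const]
  have := key ((Equiv.mulRight₀ y hy).symm x)
  rw [show (Equiv.mulRight₀ y hy).symm x * y = x from (Equiv.mulRight₀ y hy).apply_symm_apply x]
    at this
  exact this.symm

lemma PPP {a b c : G} (h : a * b = c * b * a) (hca : Commute c a) (hcb : Commute c b)
    (ha : a ^ 17 = 1) {x : E} (hx : U.P c x = 0) :
    U.P a (U.P b (U.P a x)) = (17 : ℂ)⁻¹ • U.P a x := by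
  have h1 : U.P a (U.P b (U.P a x))
      = (17 : ℂ)⁻¹ • ∑ y : ZMod 17, (U.P a * U.ρ (b ^ y.val) * U.P a) x := by
    conv_lhs => rw [P.eq_1 U b]
    simp [map_sum]
  rw [h1]
  congr 1
  rw [Finset.sum_eq_single 0]
  · simp [U.P_mul_P ha]
  · intro y _ hy
    rw [U.PbP h hca hcb ha y hy, ← mul_assoc, ← mul_assoc, U.P_comm_P hca, mul_assoc (U.P a),
      U.P_comm_ρ (hcb.pow_right _), mul_assoc, mul_assoc, U.P_comm_P hca]
    simp [hx]
  · simp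

end URep

/-- two projections at a small angle -/
lemma angle_ineq (ξ u w : E) (hu : ⟪u, ξ⟫_ℂ = ⟪u, u⟫_ℂ) (hw : ⟪w, ξ⟫_ℂ = ⟪w, w⟫_ℂ)
    (huw : (⟪u, w⟫_ℂ).re ≤ (1 / 4) * (‖u‖ * ‖w‖)) :
    -(1 / 4) * (‖ξ - u‖ ^ 2 + ‖ξ - w‖ ^ 2) ≤ 2 * (⟪ξ - u, ξ - w⟫_ℂ).re := by
  have e1 : (⟪u, ξ⟫_ℂ).re = ‖u‖ ^ 2 := by
    rw [hu]; exact inner_self_eq_norm_sq (𝕜 := ℂ) u
  have e2 : (⟪w, ξ⟫_ℂ).re = ‖w‖ ^ 2 := by
    rw [hw]; exact inner_self_eq_norm_sq (𝕜 := ℂ) w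
  have e1' : (⟪ξ, u⟫_ℂ).re = ‖u‖ ^ 2 := by
    rw [← e1]; exact inner_re_symm (𝕜 := ℂ) ξ u
  have e2' : (⟪ξ, w⟫_ℂ).re = ‖w‖ ^ 2 := by
    rw [← e2]; exact inner_re_symm (𝕜 := ℂ) ξ w
  have e0 : (⟪ξ, ξ⟫_ℂ).re = ‖ξ‖ ^ 2 := inner_self_eq_norm_sq (𝕜 := ℂ) ξ
  have a1 : ‖ξ - u‖ ^ 2 = ‖ξ‖ ^ 2 - ‖u‖ ^ 2 := by
    rw [@norm_sub_sq ℂ]; simp only [RCLike.re_to_complex]; rw [e1']; ring
  have a2 : ‖ξ - w‖ ^ 2 = ‖ξ‖ ^ 2 - ‖w‖ ^ 2 := by
    rw [@norm_sub_sq ℂ]; simp only [RCLike.re_to_complex]; rw [e2']; ring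
  have a3 : (⟪ξ - u, ξ - w⟫_ℂ).re = ‖ξ‖ ^ 2 - ‖u‖ ^ 2 - ‖w‖ ^ 2 + (⟪u, w⟫_ℂ).re := by
    simp only [inner_sub_left, inner_sub_right, Complex.sub_re, e0, e1, e2']; ring
  have a4 : ‖u + w‖ ^ 2 = ‖u‖ ^ 2 + 2 * (⟪u, w⟫_ℂ).re + ‖w‖ ^ 2 := by
    rw [@norm_add_sq ℂ]; simp only [RCLike.re_to_complex]
  have a5 : 0 ≤ ‖ξ‖ ^ 2 - 2 * (4 / 5) * (‖u‖ ^ 2 + ‖w‖ ^ 2) + (4 / 5) ^ 2 * ‖u + w‖ ^ 2 := by
    have := sq_nonneg ‖ξ - ((4 / 5 : ℝ) : ℂ) • (u + w)‖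
    rw [@norm_sub_sq ℂ, inner_smul_right, norm_smul, inner_add_right] at this
    simp only [RCLike.re_to_complex, Complex.re_ofReal_mul, Complex.add_re, e1', e2',
      Complex.norm_real, Real.norm_eq_abs] at this
    rw [abs_of_pos (by norm_num)] at this
    nlinarith
  rw [a1, a2, a3]
  rw [a4] at a5
  nlinarith [sq_nonneg (‖u‖ - ‖w‖)]

namespace URep
variable (U : URep G E)

lemma pair_ineq {a b : G} (h : Heis a b) (ha : a ^ 17 = 1) (hb : b ^ 17 = 1) (ξ : E) :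
    -(1 / 4) * (‖ξ - U.P a ξ‖ ^ 2 + ‖ξ - U.P b ξ‖ ^ 2)
      ≤ 2 * (⟪ξ - U.P a ξ, ξ - U.P b ξ⟫_ℂ).re := by
  obtain ⟨c, h, hca, hcb⟩ := h
  have hc := heis_order h hca hcb ha
  have idem : ∀ {g : G}, g ^ 17 = 1 → ∀ x, U.P g (U.P g x) = U.P g x := fun hg x => by
    rw [← Module.End.mul_apply, U.P_mul_P hg]
  have cca : ∀ x, U.P c (U.P a x) = U.P a (U.P c x) := fun x => by
    rw [← Module.End.mul_apply, U.P_comm_P hca]; rfl
  have ccb : ∀ x, U.P c (U.P b x) = U.P b (U.P c x) := fun x => by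
    rw [← Module.End.mul_apply, U.P_comm_P hcb]; rfl
  set x1 := U.P c ξ with hx1
  set x2 := ξ - U.P c ξ with hx2
  have hξ : ξ = x1 + x2 := by simp [hx1, hx2]
  have c1 : U.P c x1 = x1 := idem hc ξ
  have c2 : U.P c x2 = 0 := by simp [hx2, idem hc]
  have orth : ∀ y z : E, U.P c y = y → U.P c z = 0 → ⟪y, z⟫_ℂ = 0 := by
    intro y z hy hz
    rw [← hy, U.P_symm hc, hz, inner_zero_right]
  have da : ξ - U.P a ξ = (x1 - U.P a x1) + (x2 - U.P a x2) := by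
    rw [hξ, map_add]; abel
  have db : ξ - U.P b ξ = (x1 - U.P b x1) + (x2 - U.P b x2) := by
    rw [hξ, map_add]; abel
  have a1 : U.P c (x1 - U.P a x1) = x1 - U.P a x1 := by rw [map_sub, cca, c1]
  have b1 : U.P c (x1 - U.P b x1) = x1 - U.P b x1 := by rw [map_sub, ccb, c1]
  have a2 : U.P c (x2 - U.P a x2) = 0 := by rw [map_sub, cca, c2]; simp
  have b2 : U.P c (x2 - U.P b x2) = 0 := by rw [map_sub, ccb, c2]; simp
  have na : ‖ξ - U.P a ξ‖ ^ 2 = ‖x1 - U.P a x1‖ ^ 2 + ‖x2 - U.P a x2‖ ^ 2 := by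
    rw [da, @norm_add_sq ℂ, orth _ _ a1 a2]; simp
  have nb : ‖ξ - U.P b ξ‖ ^ 2 = ‖x1 - U.P b x1‖ ^ 2 + ‖x2 - U.P b x2‖ ^ 2 := by
    rw [db, @norm_add_sq ℂ, orth _ _ b1 b2]; simp
  have ni : ⟪ξ - U.P a ξ, ξ - U.P b ξ⟫_ℂ
      = ⟪x1 - U.P a x1, x1 - U.P b x1⟫_ℂ + ⟪x2 - U.P a x2, x2 - U.P b x2⟫_ℂ := by
    rw [da, db, inner_add_left, inner_add_right, inner_add_right, orth _ _ a1 b2,
      ← inner_conj_symm (x2 - U.P a x2) (x1 - U.P b x1), orth _ _ b1 a2]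
    simp
  have p1 : 0 ≤ (⟪x1 - U.P a x1, x1 - U.P b x1⟫_ℂ).re := by
    have comm : U.P a (U.P b x1) = U.P b (U.P a x1) := by
      have := congrArg (fun T => T x1) (U.P_c_comm h hca hcb ha)
      simp only [Module.End.mul_apply] at this
      rwa [cca, ccb, c1, ccb, cca, c1] at this
    set z := x1 - U.P a x1 - U.P b x1 + U.P a (U.P b x1) with hz
    have : ⟪x1 - U.P a x1, x1 - U.P b x1⟫_ℂ = ⟪z, z⟫_ℂ := by
      have za : U.P a z = 0 := by simp [hz, idem ha]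
      have zb : U.P b z = 0 := by simp [hz, idem hb, comm]
      have e1 : x1 - U.P a x1 = z + U.P b (x1 - U.P a x1) := by
        simp [hz, comm]
      have e2 : x1 - U.P b x1 = z + U.P a (x1 - U.P b x1) := by
        simp [hz]; abel
      have e3 : U.P a (U.P b (x1 - U.P a x1)) = 0 := by
        simp [← comm, idem ha]
      generalize x1 - U.P a x1 = y1 at *
      generalize x1 - U.P b x1 = y2 at *
      have t1 : ⟪z, U.P a y2⟫_ℂ = 0 := by rw [← U.P_symm ha, za, inner_zero_left]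
      have t2 : ⟪U.P b y1, z⟫_ℂ = 0 := by rw [U.P_symm hb, zb, inner_zero_right]
      have t3 : ⟪U.P b y1, U.P a y2⟫_ℂ = 0 := by rw [← U.P_symm ha, e3, inner_zero_left]
      calc ⟪y1, y2⟫_ℂ = ⟪z + U.P b y1, z + U.P a y2⟫_ℂ := by rw [← e1, ← e2]
        _ = _ := by
          rw [inner_add_left, inner_add_right z z, inner_add_right (U.P b y1) z, t1, t2, t3]
          simp
    rw [this]
    exact inner_self_nonneg (𝕜 := ℂ)
  have p2 := angle_ineq x2 (U.P a x2) (U.P b x2)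
    (by rw [U.P_symm ha, U.P_symm ha, idem ha]) (by rw [U.P_symm hb, U.P_symm hb, idem hb]) (by
      have e : ‖U.P b (U.P a x2)‖ ^ 2 = (17 : ℝ)⁻¹ * ‖U.P a x2‖ ^ 2 := by
        rw [← @inner_self_eq_norm_sq ℂ, ← @inner_self_eq_norm_sq ℂ, U.P_symm hb, idem hb,
          ← idem ha x2, U.P_symm ha, idem ha, U.PPP h hca hcb ha c2, inner_smul_right]
        simp
      have e' : ‖U.P b (U.P a x2)‖ ≤ (1 / 4) * ‖U.P a x2‖ := by
        rw [← sq_le_sq₀ (by positivity) (by positivity), e]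
        nlinarith [sq_nonneg ‖U.P a x2‖]
      calc (⟪U.P a x2, U.P b x2⟫_ℂ).re = (⟪U.P b (U.P a x2), U.P b x2⟫_ℂ).re := by
            rw [U.P_symm hb (U.P a x2), idem hb]
        _ ≤ ‖U.P b (U.P a x2)‖ * ‖U.P b x2‖ := re_inner_le_norm (𝕜 := ℂ) _ _
        _ ≤ _ := by nlinarith [norm_nonneg (U.P b x2)])
  rw [na, nb, ni, Complex.add_re]
  nlinarith [sq_nonneg ‖x1 - U.P a x1‖, sq_nonneg ‖x1 - U.P b x1‖]

end URep

/-- four elements of order dividing 17, pairwise Heisenberg -/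
structure Gens {G : Type*} [Group G] (g : Fin 4 → G) : Prop where
  ord : ∀ i, g i ^ 17 = 1
  heis : ∀ i j, i ≠ j → Heis (g i) (g j)

namespace URep
variable (U : URep G E) (g : Fin 4 → G)

noncomputable def D (ξ : E) : ℝ := ∑ i, ‖ξ - U.P (g i) ξ‖ ^ 2

noncomputable def Lap : Module.End ℂ E := ∑ i, (1 - U.P (g i))

noncomputable def M : Module.End ℂ E := (4 : ℂ)⁻¹ • ∑ i, U.P (g i)

noncomputable def Dt (ξ : E) : ℝ := ∑ i, ∑ b : ZMod 17, ‖U.ρ (g i ^ b.val) ξ - ξ‖ ^ 2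

variable {g}

lemma Lap_apply (ξ : E) : U.Lap g ξ = ∑ i, (ξ - U.P (g i) ξ) := by
  simp [Lap]

lemma M_apply (ξ : E) : U.M g ξ = ξ - (4 : ℂ)⁻¹ • U.Lap g ξ := by
  rw [Lap_apply, Finset.sum_sub_distrib, smul_sub, M, Finset.sum_const, Finset.card_univ,
    Fintype.card_fin, ← Nat.cast_smul_eq_nsmul ℂ, smul_smul]
  simp

lemma D_nonneg (ξ : E) : 0 ≤ U.D g ξ := Finset.sum_nonneg (fun _ _ => sq_nonneg _)

lemma q_inner {a : G} (ha : a ^ 17 = 1) (ξ : E) :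
    (⟪ξ - U.P a ξ, ξ⟫_ℂ).re = ‖ξ - U.P a ξ‖ ^ 2 := by
  have : U.P a (ξ - U.P a ξ) = 0 := by
    rw [map_sub, ← Module.End.mul_apply, U.P_mul_P ha, sub_self]
  rw [← @inner_self_eq_norm_sq ℂ, inner_sub_right (ξ - U.P a ξ), ← U.P_symm ha, this]
  simp

lemma q_norm_le {a : G} (ha : a ^ 17 = 1) (ξ : E) : ‖ξ - U.P a ξ‖ ≤ ‖ξ‖ := by
  have h := U.q_inner ha ξ
  have h2 : (⟪ξ - U.P a ξ, ξ⟫_ℂ).re ≤ ‖ξ - U.P a ξ‖ * ‖ξ‖ := re_inner_le_norm (𝕜 := ℂ) _ _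
  by_contra hc
  push Not at hc
  nlinarith [norm_nonneg ξ]

lemma Lap_inner (hg : Gens g) (ξ : E) : (⟪U.Lap g ξ, ξ⟫_ℂ).re = U.D g ξ := by
  rw [Lap_apply, sum_inner, Complex.re_sum, D]
  exact Finset.sum_congr rfl (fun i _ => U.q_inner (hg.ord i) ξ)

lemma Lap_symm (hg : Gens g) (x y : E) : ⟪U.Lap g x, y⟫_ℂ = ⟪x, U.Lap g y⟫_ℂ := by
  rw [Lap_apply, Lap_apply, sum_inner, inner_sum]
  refine Finset.sum_congr rfl (fun i _ => ?_)
  rw [inner_sub_left, inner_sub_right, U.P_symm (hg.ord i)]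

lemma D_le (hg : Gens g) (ξ : E) : U.D g ξ ≤ 4 * ‖ξ‖ ^ 2 := by
  have : ∀ i, ‖ξ - U.P (g i) ξ‖ ^ 2 ≤ ‖ξ‖ ^ 2 := fun i =>
    pow_le_pow_left₀ (norm_nonneg _) (U.q_norm_le (hg.ord i) ξ) 2
  calc U.D g ξ ≤ ∑ _i : Fin 4, ‖ξ‖ ^ 2 := Finset.sum_le_sum (fun i _ => this i)
    _ = _ := by simp

lemma Lap_sq_le (ξ : E) : ‖U.Lap g ξ‖ ^ 2 ≤ 4 * U.D g ξ := by
  rw [Lap_apply, D]
  have h1 := norm_sum_le Finset.univ (fun i => ξ - U.P (g i) ξ)
  have h2 := sq_sum_le_card_mul_sum_sq (s := Finset.univ) (f := fun i => ‖ξ - U.P (g i) ξ‖)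
  simp only [Finset.card_univ, Fintype.card_fin, Nat.cast_ofNat] at h2
  exact (pow_le_pow_left₀ (norm_nonneg _) h1 2).trans h2

lemma gap (hg : Gens g) (ξ : E) : U.D g ξ ≤ 4 * ‖U.Lap g ξ‖ ^ 2 := by
  have p := fun i j (h : i ≠ j) => U.pair_ineq (hg.heis i j h) (hg.ord i) (hg.ord j) ξ
  have p01 := p 0 1 (by decide)
  have p02 := p 0 2 (by decide)
  have p03 := p 0 3 (by decide)
  have p12 := p 1 2 (by decide)
  have p13 := p 1 3 (by decide)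
  have p23 := p 2 3 (by decide)
  rw [Lap_apply, D, Fin.sum_univ_four, Fin.sum_univ_four]
  generalize ξ - U.P (g 0) ξ = y0 at *
  generalize ξ - U.P (g 1) ξ = y1 at *
  generalize ξ - U.P (g 2) ξ = y2 at *
  generalize ξ - U.P (g 3) ξ = y3 at *
  rw [@norm_add_sq ℂ, @norm_add_sq ℂ, @norm_add_sq ℂ]
  simp only [inner_add_left, RCLike.re_to_complex, Complex.add_re]
  linarith

lemma D_M (hg : Gens g) (ξ : E) : U.D g (U.M g ξ) ≤ (15 / 16) * U.D g ξ := by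
  have h1 := U.gap hg ξ
  have h2 := U.D_le hg (U.Lap g ξ)
  have e : U.D g (U.M g ξ)
      = U.D g ξ - (1 / 2) * ‖U.Lap g ξ‖ ^ 2 + (1 / 16) * U.D g (U.Lap g ξ) := by
    rw [← U.Lap_inner hg, ← U.Lap_inner hg, ← U.Lap_inner hg, M_apply, map_sub, map_smul,
      inner_sub_left, inner_sub_right, inner_sub_right, inner_smul_left, inner_smul_left,
      inner_smul_right, inner_smul_right, U.Lap_symm hg (U.Lap g ξ) ξ,
      ← @inner_self_eq_norm_sq ℂ]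
    simp [Complex.conj_ofNat]
    ring
  rw [e]; linarith

lemma M_sub (ξ : E) : ‖U.M g ξ - ξ‖ ^ 2 ≤ (1 / 4) * U.D g ξ := by
  have := U.Lap_sq_le (g := g) ξ
  rw [M_apply, sub_sub_cancel_left, norm_neg, norm_smul]
  simp only [norm_inv, Complex.norm_ofNat]
  nlinarith

lemma M_norm (hg : Gens g) (ξ : E) : ‖U.M g ξ‖ ^ 2 ≤ ‖ξ‖ ^ 2 - (1 / 4) * U.D g ξ := by
  have h1 := U.Lap_sq_le (g := g) ξ
  have h2 := U.Lap_inner hg ξ
  rw [M_apply, @norm_sub_sq ℂ, inner_smul_right, norm_smul, ← inner_conj_symm]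
  simp only [norm_inv, Complex.norm_ofNat, RCLike.re_to_complex]
  have : ((4 : ℂ)⁻¹ * (starRingEnd ℂ) ⟪U.Lap g ξ, ξ⟫_ℂ).re = (1 / 4) * U.D g ξ := by
    rw [← h2, show (4 : ℂ)⁻¹ = ((1 / 4 : ℝ) : ℂ) by norm_num, Complex.re_ofReal_mul,
      Complex.conj_re]
  rw [this]
  nlinarith

lemma Dt_eq (hg : Gens g) (ξ : E) : U.Dt g ξ = 34 * U.D g ξ := by
  rw [Dt, D, Finset.mul_sum]
  refine Finset.sum_congr rfl (fun i _ => ?_)
  have h1 := U.q_inner (hg.ord i) ξ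
  have h2 : (⟪U.P (g i) ξ, ξ⟫_ℂ).re
      = (17 : ℝ)⁻¹ * ∑ b : ZMod 17, (⟪U.ρ (g i ^ b.val) ξ, ξ⟫_ℂ).re := by
    rw [P, LinearMap.smul_apply, inner_smul_left, LinearMap.sum_apply, sum_inner,
      ← Complex.re_sum, ← Complex.re_ofReal_mul]
    simp [Complex.conj_ofNat]
  rw [inner_sub_left, Complex.sub_re, h2] at h1
  have h3 : (⟪ξ, ξ⟫_ℂ).re = ‖ξ‖ ^ 2 := inner_self_eq_norm_sq (𝕜 := ℂ) ξ
  simp_rw [@norm_sub_sq ℂ, U.norm_map, RCLike.re_to_complex]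
  rw [Finset.sum_add_distrib, Finset.sum_sub_distrib, ← Finset.mul_sum]
  simp only [Finset.sum_const, Finset.card_univ, ZMod.card, nsmul_eq_mul, Nat.cast_ofNat]
  rw [@norm_sub_sq ℂ] at h1
  simp only [RCLike.re_to_complex] at h1
  linarith

lemma D_pow (hg : Gens g) (n : ℕ) (ξ : E) :
    U.D g ((U.M g ^ n) ξ) ≤ (15 / 16) ^ n * U.D g ξ := by
  induction n with
  | zero => simp
  | succ n ih =>
    rw [pow_succ', Module.End.mul_apply, pow_succ']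
    have := U.D_M hg ((U.M g ^ n) ξ)
    nlinarith

lemma pow_sub (hg : Gens g) (n : ℕ) (ξ : E) {r : ℝ} (hr : 0 ≤ r) (h : U.D g ξ ≤ r ^ 2) :
    ‖(U.M g ^ n) ξ - ξ‖ ≤ 16 * r * (1 - (31 / 32) ^ n) := by
  induction n with
  | zero => simp
  | succ n ih =>
    have h1 := U.M_sub (g := g) ((U.M g ^ n) ξ)
    have h2 := U.D_pow hg n ξ
    have h3 : ((15 : ℝ) / 16) ^ n ≤ ((31 / 32) ^ n) ^ 2 := by
      rw [← pow_mul, mul_comm, pow_mul]
      exact pow_le_pow_left₀ (by norm_num) (by norm_num) n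
    have h4 : ‖U.M g ((U.M g ^ n) ξ) - (U.M g ^ n) ξ‖ ≤ (1 / 2) * r * (31 / 32) ^ n := by
      rw [← sq_le_sq₀ (by positivity) (by positivity)]
      have h5 : (15 / 16) ^ n * U.D g ξ ≤ ((31 / 32) ^ n) ^ 2 * r ^ 2 :=
        mul_le_mul h3 h (U.D_nonneg ξ) (by positivity)
      nlinarith
    rw [pow_succ', Module.End.mul_apply]
    have h6 := norm_sub_le_norm_sub_add_norm_sub (U.M g ((U.M g ^ n) ξ)) ((U.M g ^ n) ξ) ξ
    rw [pow_succ]
    nlinarith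

end URep

end Vale.Agent.P083
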