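import Vale.Agent.P083.Dom

set_option linter.unusedSectionVars false

namespace Vale.Agent.P083

/-- the configuration space -/
abbrev Om : Type := ℕ → ZMod 17

/-- monomial transformations -/
@[ext] structure Mon : Type where
  p : Equiv.Perm Om
  χ : Om → ZMod 17

instance : Mul Mon := ⟨fun a b => ⟨a.p * b.p, fun η => a.χ (b.p η) + b.χ η⟩⟩
instance : One Mon := ⟨⟨1, fun _ => 0⟩⟩
instance : Inv Mon := ⟨fun a => ⟨a.p⁻¹, fun η => -a.χ (a.p⁻¹ η)⟩⟩

@[simp] lemma Mon.mul_p (a b : Mon) : (a * b).p = a.p * b.p := rfl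
@[simp] lemma Mon.mul_χ (a b : Mon) (η : Om) : (a * b).χ η = a.χ (b.p η) + b.χ η := rfl
@[simp] lemma Mon.one_p : (1 : Mon).p = 1 := rfl
@[simp] lemma Mon.one_χ (η : Om) : (1 : Mon).χ η = 0 := rfl
@[simp] lemma Mon.inv_p (a : Mon) : a⁻¹.p = a.p⁻¹ := rfl
@[simp] lemma Mon.inv_χ (a : Mon) (η : Om) : a⁻¹.χ η = -a.χ (a.p⁻¹ η) := rfl

instance : Group Mon := Group.ofLeftAxioms
  (fun a b c => by ext <;> simp [add_assoc])
  (fun a => by ext <;> simp)
  (fun a => by ext <;> simp)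

/-- root transformations, as functions -/
def ef (r j : ℕ) (a : ZMod 17) (η : Om) : Om :=
  fun i => η i + if i % 3 = r ∧ (i + j) % 3 ≠ r then a * η (i + j) else 0

lemma ef_ef (r j : ℕ) (a b : ZMod 17) (η : Om) : ef r j a (ef r j b η) = ef r j (a + b) η := by
  ext i
  simp only [ef]
  by_cases h : i % 3 = r ∧ (i + j) % 3 ≠ r
  · rw [if_pos h, if_pos h, if_pos h, if_neg (fun h' => h.2 h'.1)]; ring
  · rw [if_neg h, if_neg h, if_neg h]; ring

lemma ef_zero (r j : ℕ) (η : Om) : ef r j 0 η = η := by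
  ext i; simp [ef]

/-- root elements -/
def E (r j : ℕ) (a : ZMod 17) : Mon where
  p := ⟨ef r j a, ef r j (-a), fun η => by rw [ef_ef]; simp [ef_zero],
    fun η => by rw [ef_ef]; simp [ef_zero]⟩
  χ _ := 0

@[simp] lemma E_p (r j : ℕ) (a : ZMod 17) (η : Om) : (E r j a).p η = ef r j a η := rfl
@[simp] lemma E_χ (r j : ℕ) (a : ZMod 17) (η : Om) : (E r j a).χ η = 0 := rfl

/-- phase elements -/
def Ph (f : Om → ZMod 17) : Mon := ⟨1, f⟩

@[simp] lemma Ph_p (f : Om → ZMod 17) : (Ph f).p = 1 := rfl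
@[simp] lemma Ph_χ (f : Om → ZMod 17) (η : Om) : (Ph f).χ η = f η := rfl

lemma E_pow (r j n : ℕ) : E r j 1 ^ n = E r j n := by
  induction n with
  | zero => ext η : 2 <;> simp [ef_zero]
  | succ n ih => rw [pow_succ, ih]; ext η : 2 <;> simp [ef_ef]

lemma Ph_pow (f : Om → ZMod 17) (n : ℕ) : Ph f ^ n = Ph (fun η => n * f η) := by
  induction n with
  | zero => ext η : 2 <;> simp
  | succ n ih => rw [pow_succ, ih]; ext η : 2 <;> simp [add_mul]

lemma ef_pos {r j i : ℕ} (a : ZMod 17) (η : Om) (h : i % 3 = r) (h' : (i + j) % 3 ≠ r) :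
    ef r j a η i = η i + a * η (i + j) := by rw [ef, if_pos ⟨h, h'⟩]

lemma ef_neg {r j i : ℕ} (a : ZMod 17) (η : Om) (h : i % 3 ≠ r) :
    ef r j a η i = η i := by rw [ef, if_neg (fun h' => h h'.1), add_zero]

lemma E_comm (r j j' : ℕ) (hj : j % 3 ≠ 0) (hj' : j' % 3 ≠ 0) (hjj : (j + j') % 3 ≠ 0) :
    E r j 1 * E ((r + j) % 3) j' 1 = E r (j + j') 1 * E ((r + j) % 3) j' 1 * E r j 1 := by
  ext η : 2
  · ext i
    simp only [Mon.mul_p, Equiv.Perm.mul_apply, E_p]
    by_cases h1 : i % 3 = r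
    · simp (disch := omega) only [ef_pos, ef_neg, add_assoc]; ring
    · by_cases h2 : i % 3 = (r + j) % 3
      · simp (disch := omega) only [ef_pos, ef_neg]
      · simp (disch := omega) only [ef_neg]
  · simp

lemma E_commute (r j s j' : ℕ) (h1 : (r + j) % 3 ≠ s) (h2 : (s + j') % 3 ≠ r) :
    Commute (E r j 1) (E s j' 1) := by
  show _ = _
  ext η : 2
  · ext i
    simp only [Mon.mul_p, Equiv.Perm.mul_apply, E_p, ef]
    split_ifs <;> first | omega | ring
  · simp

/-- the four generators -/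
def g0 : Fin 4 → Mon := ![E 0 1 1, E 1 1 1, E 2 1 1, Ph (fun η => η 0)]

lemma heis_E (r : ℕ) (_hr : r < 3) : Heis (E r 1 1) (E ((r + 1) % 3) 1 1) :=
  ⟨E r 2 1, E_comm r 1 1 (by omega) (by omega) (by omega),
    E_commute _ _ _ _ (by omega) (by omega), E_commute _ _ _ _ (by omega) (by omega)⟩

lemma heis_Ph (r : ℕ) : Heis (E r 1 1) (Ph (fun η => η 0)) := by
  refine ⟨Ph (fun η => if r = 0 then -η 1 else 0), ?_, ?_, ?_⟩
  · ext η : 2
    · simp
    · by_cases h : r = 0
      · simp [ef, h]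
      · simp [ef, h, Ne.symm h]
  · show _ = _
    ext η : 2
    · simp
    · by_cases h : r = 0 <;> simp [ef, h]
  · show _ = _
    ext η : 2 <;> simp [add_comm]

lemma gens_g0 : Gens g0 where
  ord i := by
    have h : ((17 : ℕ) : ZMod 17) = 0 := rfl
    fin_cases i <;> simp only [g0, Fin.zero_eta, Fin.mk_one, Fin.reduceFinMk, Matrix.cons_val,
      E_pow, Ph_pow, h] <;> ext η : 2 <;> simp [ef_zero]
  heis i j hij := by
    have h01 : Heis (E 0 1 1) (E 1 1 1) := heis_E 0 (by omega)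
    have h12 : Heis (E 1 1 1) (E 2 1 1) := heis_E 1 (by omega)
    have h20 : Heis (E 2 1 1) (E 0 1 1) := heis_E 2 (by omega)
    fin_cases i <;> fin_cases j <;> first
      | exact absurd rfl hij
      | exact h01 | exact h12 | exact h20 | exact h01.symm | exact h12.symm | exact h20.symm
      | exact heis_Ph _ | exact (heis_Ph _).symm

/-- the group -/
abbrev Gam : Type := Subgroup.closure (Set.range g0)

/-- the generators inside the group -/
def gen (i : Fin 4) : Gam := ⟨g0 i, Subgroup.subset_closure ⟨i, rfl⟩⟩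

lemma gens_gen : Gens gen where
  ord i := Subtype.ext (gens_g0.ord i)
  heis i j hij := by
    obtain ⟨c, h1, h2, h3⟩ := gens_g0.heis i j hij
    have hc : c = ((gen i * gen j * (gen i)⁻¹ * (gen j)⁻¹ : Gam) : Mon) := by
      show c = g0 i * g0 j * (g0 i)⁻¹ * (g0 j)⁻¹
      rw [h1]; group
    refine ⟨gen i * gen j * (gen i)⁻¹ * (gen j)⁻¹, by group, Subtype.ext ?_, Subtype.ext ?_⟩
    · rw [Subgroup.coe_mul, Subgroup.coe_mul _ (gen i), ← hc]; exact h2
    · rw [Subgroup.coe_mul, Subgroup.coe_mul _ (gen j), ← hc]; exact h3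

lemma gen_top : Subgroup.closure (Set.range gen) = ⊤ := by
  rw [← Subgroup.closure_closure_coe_preimage]
  congr 1
  ext x
  constructor
  · rintro ⟨i, rfl⟩; exact ⟨i, rfl⟩
  · rintro ⟨i, hi⟩; exact ⟨i, Subtype.ext hi⟩

lemma E1_mem (r : ℕ) (hr : r < 3) : E r 1 1 ∈ Subgroup.closure (Set.range g0) := by
  interval_cases r
  · exact (gen 0).2
  · exact (gen 1).2
  · exact (gen 2).2

lemma E_mem_add {K : Subgroup Mon} {r j j' : ℕ} (hj : j % 3 ≠ 0) (hj' : j' % 3 ≠ 0)
    (hjj : (j + j') % 3 ≠ 0) (h1 : E r j 1 ∈ K) (h2 : E ((r + j) % 3) j' 1 ∈ K) :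
    E r (j + j') 1 ∈ K := by
  have : E r (j + j') 1 = E r j 1 * E ((r + j) % 3) j' 1 * (E r j 1)⁻¹
      * (E ((r + j) % 3) j' 1)⁻¹ := by
    rw [E_comm r j j' hj hj' hjj]; group
  rw [this]
  exact K.mul_mem (K.mul_mem (K.mul_mem h1 h2) (K.inv_mem h1)) (K.inv_mem h2)

lemma E_mem (n r : ℕ) (hr : r < 3) : E r (3 * n + 1) 1 ∈ Subgroup.closure (Set.range g0) := by
  induction n with
  | zero => exact E1_mem r hr
  | succ n ih =>
    have h2 : ∀ s, s < 3 → E s (1 + 1) 1 ∈ Subgroup.closure (Set.range g0) := fun s hs =>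
      E_mem_add (by omega) (by omega) (by omega) (E1_mem s hs) (E1_mem _ (by omega))
    rw [show 3 * (n + 1) + 1 = (3 * n + 1 + 1) + (1 + 1) by ring]
    exact E_mem_add (by omega) (by omega) (by omega)
      (E_mem_add (by omega) (by omega) (by omega) ih (E1_mem _ (by omega))) (h2 _ (by omega))

lemma Ph_mem (i : ℕ) : Ph (fun η => η i) ∈ Subgroup.closure (Set.range g0) := by
  induction i with
  | zero => exact (gen 3).2
  | succ i ih =>
    have h1 := E1_mem (i % 3) (by omega)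
    have : Ph (fun η => η (i + 1)) = (Ph (fun η => η i))⁻¹ *
        ((E (i % 3) 1 1)⁻¹ * Ph (fun η => η i) * E (i % 3) 1 1) := by
      ext η : 2
      · simp
      · have : (i + 1) % 3 ≠ i % 3 := by omega
        simp [ef, this]
    rw [this]
    exact mul_mem (inv_mem ih) (mul_mem (mul_mem (inv_mem h1) ih) h1)

/-- the standard character -/
noncomputable def ψ : AddChar (ZMod 17) ℂ := ZMod.stdAddChar

lemma norm_ψ (a : ZMod 17) : ‖ψ a‖ = 1 := AddChar.norm_apply _ _

/-- the monomial action of the group -/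
noncomputable def mOm : MonoAct Gam Om where
  act := ⟨⟨fun γ => γ.1.p, rfl⟩, fun _ _ => rfl⟩
  c γ η := ψ (γ.1.χ η)
  norm_c _ _ := norm_ψ _
  cocycle γ γ' η := by rw [← AddChar.map_add_eq_mul]; rfl

lemma mOm_act (γ : Gam) (η : Om) : mOm.act γ η = γ.1.p η := rfl
lemma mOm_c (γ : Gam) (η : Om) : mOm.c γ η = ψ (γ.1.χ η) := rfl

/-- restriction of a monomial action to an invariant subset -/
def MonoAct.restrict {G X : Type*} [Group G] (m : MonoAct G X) (P : X → Prop)
    (hP : ∀ γ x, P x → P (m.act γ x)) : MonoAct G {x // P x} where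
  act :=
    { toFun := fun γ => (m.act γ).subtypePerm (fun x =>
        ⟨fun h => by simpa using hP γ⁻¹ _ h, hP γ x⟩)
      map_one' := by ext; simp
      map_mul' := fun _ _ => by ext; simp; rfl }
  c γ x := m.c γ x
  norm_c _ _ := m.norm_c _ _
  cocycle _ _ _ := m.cocycle _ _ _

/-- the level sets -/
def Lev (k : ℕ) (η : Om) : Prop := η k = 1 ∧ ∀ i, k < i → η i = 0

lemma Lev.ef {k : ℕ} {η : Om} (h : Lev k η) (r : ℕ) (a : ZMod 17) : Lev k (ef r 1 a η) := by
  refine ⟨?_, fun i hi => ?_⟩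
  · simp [P083.ef, h.1, h.2 (k + 1) (by omega)]
  · simp [P083.ef, h.2 i hi, h.2 (i + 1) (by omega)]

lemma lev_inv (k : ℕ) (γ : Gam) (η : Om) (h : Lev k η) : Lev k (mOm.act γ η) := by
  obtain ⟨γ, hγ⟩ := γ
  have key : (∀ η, Lev k η → Lev k (γ.p η)) ∧ ∀ η, Lev k η → Lev k (γ⁻¹.p η) := by
    induction hγ using Subgroup.closure_induction with
    | mem x hx =>
      obtain ⟨i, rfl⟩ := hx
      fin_cases i
      · exact ⟨fun η h => h.ef 0 1, fun η h => h.ef 0 (-1)⟩
      · exact ⟨fun η h => h.ef 1 1, fun η h => h.ef 1 (-1)⟩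
      · exact ⟨fun η h => h.ef 2 1, fun η h => h.ef 2 (-1)⟩
      · exact ⟨fun η h => h, fun η h => h⟩
    | one => exact ⟨fun η h => h, fun η h => h⟩
    | mul x y _ _ hx hy =>
      refine ⟨fun η h => hx.1 _ (hy.1 _ h), fun η h => ?_⟩
      rw [mul_inv_rev]; exact hy.2 _ (hx.2 _ h)
    | inv x _ hx => exact ⟨hx.2, by rw [inv_inv]; exact hx.1⟩
  exact key.1 η h

/-- the level sets as types -/
abbrev L (k : ℕ) : Type := {η : Om // Lev k η}

/-- the action on a level -/
noncomputable def mL (k : ℕ) : MonoAct Gam (L k) := mOm.restrict (Lev k) (lev_inv k)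

lemma mL_act (k : ℕ) (γ : Gam) (η : L k) : ((mL k).act γ η).1 = mOm.act γ η.1 := rfl
lemma mL_c (k : ℕ) (γ : Gam) (η : L k) : (mL k).c γ η = mOm.c γ η.1 := rfl

/-- prepending a letter -/
def cons (c : ZMod 17) (η : Om) : Om
  | 0 => c
  | i + 1 => η i

lemma cons_inj (c : ZMod 17) : Function.Injective (cons c) := fun _ _ h =>
  funext (fun i => congrFun h (i + 1))

/-- the recursive structure of the levels -/
def consL (k : ℕ) : ZMod 17 × L k ≃ L (k + 1) where
  toFun q := ⟨cons q.1 q.2.1, q.2.2.1, fun i hi => by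
    obtain ⟨i, rfl⟩ : ∃ j, i = j + 1 := ⟨i - 1, by omega⟩
    exact q.2.2.2 i (by omega)⟩
  invFun η := (η.1 0, ⟨fun i => η.1 (i + 1), η.2.1, fun i hi => η.2.2 (i + 1) (by omega)⟩)
  left_inv _ := rfl
  right_inv η := Subtype.ext (funext (fun i => by cases i <;> rfl))

lemma consL_val (k : ℕ) (c : ZMod 17) (η : L k) : (consL k (c, η)).1 = cons c η.1 := rfl

/-- the base point -/
def om0 : L 0 := ⟨cons 1 0, rfl, fun i hi => by
  obtain ⟨i, rfl⟩ : ∃ j, i = j + 1 := ⟨i - 1, by omega⟩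
  rfl⟩

instance : Unique (L 0) where
  default := om0
  uniq η := Subtype.ext (funext (fun i => by
    cases i with
    | zero => exact η.2.1
    | succ i => exact η.2.2 _ (by omega)))

instance (k : ℕ) : Finite (L k) := by
  induction k with
  | zero => infer_instance
  | succ k ih => exact Finite.of_equiv _ (consL k)

noncomputable instance (k : ℕ) : Fintype (L k) := Fintype.ofFinite _

lemma mL_sep (k : ℕ) (η η' : L k) (h : η ≠ η') :
    ∃ γ, (mL k).act γ η = η ∧ (mL k).act γ η' = η' ∧ (mL k).c γ η ≠ (mL k).c γ η' := by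
  obtain ⟨i, hi⟩ : ∃ i, η.1 i ≠ η'.1 i := by
    by_contra h'
    push Not at h'
    exact h (Subtype.ext (funext h'))
  exact ⟨⟨_, Ph_mem i⟩, rfl, rfl, fun h' => hi (ZMod.injective_stdAddChar h')⟩

lemma mL_orb (d : ℕ) (η : L (3 * d)) :
    ∃ f : Fin d → Gam, Function.Injective (fun i => (mL (3 * d)).act (f i) η) := by
  refine ⟨fun i => ⟨_, E_mem i 2 (by omega)⟩, fun i j hij => ?_⟩
  wlog hlt : i < j generalizing i j
  · rcases lt_or_eq_of_le (not_lt.1 hlt) with h | h
    · exact (this j i hij.symm h).symm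
    · exact h.symm
  exfalso
  have h1 : ef 2 (3 * i + 1) 1 η.1 = ef 2 (3 * j + 1) 1 η.1 := congrArg Subtype.val hij
  have h2 := congrFun h1 (3 * d - (3 * i + 1))
  have hi := i.2
  have hj : (i : ℕ) < j := hlt
  simp only [ef] at h2
  rw [if_pos (by omega), if_pos (by omega), show 3 * d - (3 * i + 1) + (3 * i + 1) = 3 * d by omega,
    η.2.1, η.2.2 (3 * d - (3 * i + 1) + (3 * j + 1)) (by omega)] at h2
  simp at h2

lemma gen_pow_E (r : Fin 4) (hr : r ≠ 3) (b : ZMod 17) :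
    ((gen r ^ b.val : Gam) : Mon) = E r 1 b := by
  rw [Subgroup.coe_pow]
  fin_cases r
  · exact (E_pow 0 1 _).trans (by simp)
  · exact (E_pow 1 1 _).trans (by simp)
  · exact (E_pow 2 1 _).trans (by simp)
  · exact absurd rfl hr

lemma gen_pow_Ph (b : ZMod 17) :
    ((gen 3 ^ b.val : Gam) : Mon) = Ph (fun η => b * η 0) := by
  rw [Subgroup.coe_pow]
  exact (Ph_pow _ _).trans (by simp)

lemma tau_act (b : ZMod 17) (η : Om) : mOm.act (gen 3 ^ b.val) η = η := by
  rw [mOm_act, gen_pow_Ph]; rfl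

lemma tau_c (b : ZMod 17) (η : Om) : mOm.c (gen 3 ^ b.val) η = ψ (b * η 0) := by
  rw [mOm_c, gen_pow_Ph]; rfl

lemma step_rel (i : Fin 4) (b c a : ZMod 17) :
    ∃ (i' : Fin 4) (b' c' : ZMod 17) (φ : ℂ), ∀ η : Om, η 0 = a →
      mOm.act (gen i ^ b.val) (cons c η) = cons c' (mOm.act (gen i' ^ b'.val) η) ∧
      mOm.c (gen i ^ b.val) (cons c η) = φ * mOm.c (gen i' ^ b'.val) η := by
  fin_cases i
  · refine ⟨2, b, c + b * a, 1, fun η h => ?_⟩
    simp only [mOm_act, mOm_c]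
    rw [gen_pow_E _ (by decide), gen_pow_E _ (by decide)]
    refine ⟨funext (fun i => ?_), by simp⟩
    cases i with
    | zero => simp [ef, cons, h]
    | succ i =>
      simp only [E_p, ef, cons]
      split_ifs <;> first | omega | rfl
  · refine ⟨0, b, c, 1, fun η h => ?_⟩
    simp only [mOm_act, mOm_c]
    rw [gen_pow_E _ (by decide), gen_pow_E _ (by decide)]
    refine ⟨funext (fun i => ?_), by simp⟩
    cases i with
    | zero => simp [ef, cons]
    | succ i =>
      simp only [E_p, ef, cons]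
      split_ifs <;> first | omega | rfl
  · refine ⟨1, b, c, 1, fun η h => ?_⟩
    simp only [mOm_act, mOm_c]
    rw [gen_pow_E _ (by decide), gen_pow_E _ (by decide)]
    refine ⟨funext (fun i => ?_), by simp⟩
    cases i with
    | zero => simp [ef, cons]
    | succ i =>
      simp only [E_p, ef, cons]
      split_ifs <;> first | omega | rfl
  · refine ⟨3, 0, c, ψ (b * c), fun η h => ?_⟩
    refine ⟨(tau_act _ _).trans (by rw [tau_act]), (tau_c _ _).trans ?_⟩
    rw [tau_c]; simp [cons]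

end Vale.Agent.P083
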