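import Vale.Agent.P083.Cpap

open scoped InnerProductSpace
open Filter Topology

set_option linter.unusedSectionVars false

namespace Vale.Agent.P083

/-- words whose length lies in a window -/
def KF (N : ℕ) : Finset (List Bool) := (Finset.range N).biUnion (fun i => words (N + i))

lemma sum_KF {E : Type*} [AddCommMonoid E] (N : ℕ) (f : List Bool → E) :
    ∑ κ : KF N, f κ = ∑ i ∈ Finset.range N, ∑ κ ∈ words (N + i), f κ := by
  rw [Finset.sum_coe_sort (KF N) f, KF, Finset.sum_biUnion]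
  intro i _ j _ hij
  rw [Function.onFun, Finset.disjoint_left]
  intro l h1 h2
  rw [mem_words] at h1 h2
  omega

lemma len_KF {N : ℕ} (κ : KF N) : κ.1.length ≤ 2 * N := by
  obtain ⟨i, hi, h⟩ := Finset.mem_biUnion.1 κ.2
  rw [mem_words] at h
  rw [Finset.mem_range] at hi
  omega

variable {H : Type*} [NormedAddCommGroup H] [InnerProductSpace ℂ H] [CompleteSpace H]

lemma compress {K : Type*} [Fintype K] (e : K → H) (he : Orthonormal ℂ e) (p : H →L[ℂ] H) :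
    ∃ x : EuclideanSpace ℂ K →ₗ[ℂ] EuclideanSpace ℂ K,
      (∀ y κ, x y κ = ∑ κ', ⟪e κ, p (e κ')⟫_ℂ * y κ') ∧ ∀ y, ‖x y‖ ≤ ‖p‖ * ‖y‖ := by
  let x : EuclideanSpace ℂ K →ₗ[ℂ] EuclideanSpace ℂ K :=
    { toFun := fun y => WithLp.toLp 2 (fun κ => ∑ κ', ⟪e κ, p (e κ')⟫_ℂ * y κ')
      map_add' := fun y z => by ext κ; simp [mul_add, Finset.sum_add_distrib]
      map_smul' := fun c y => by ext κ; simp [Finset.mul_sum, mul_left_comm] }
  refine ⟨x, fun _ _ => rfl, fun y => ?_⟩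
  set z := ∑ κ', y κ' • e κ' with hz
  have h1 : ∀ κ, x y κ = ⟪e κ, p z⟫_ℂ := fun κ => by
    rw [hz, map_sum, inner_sum]
    exact Finset.sum_congr rfl (fun κ' _ => by rw [map_smul, inner_smul_right, mul_comm])
  have h2 : ‖z‖ = ‖y‖ := by
    rw [← sq_eq_sq₀ (norm_nonneg _) (norm_nonneg _), ← inner_self_eq_norm_sq (𝕜 := ℂ), hz,
      he.inner_sum, EuclideanSpace.norm_sq_eq, map_sum]
    exact Finset.sum_congr rfl (fun κ _ => by rw [Complex.conj_mul']; norm_cast)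
  have h3 : ‖x y‖ ≤ ‖p z‖ := by
    rw [← sq_le_sq₀ (norm_nonneg _) (norm_nonneg _), EuclideanSpace.norm_sq_eq]
    simp only [h1]
    exact he.sum_inner_products_le _
  rw [← h2]
  exact h3.trans (p.le_opNorm z)

lemma Cuntz.approx (C : Cuntz H) {ξ : H} (hξ : ‖ξ‖ = 1) {W : Type*} [Finite W]
    (u : W → H →L[ℂ] H) (hu : ∀ w, u w ∈ closure (C.poly : Set (H →L[ℂ] H))) {δ : ℝ}
    (hδ : 0 < δ) :
    ∃ (K : Type) (_ : Fintype K) (c : ℝ) (R : K → H →L[ℂ] H) (a : W → K → K → ℂ)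
      (x : W → EuclideanSpace ℂ K →ₗ[ℂ] EuclideanSpace ℂ K) (v : W → H →L[ℂ] H),
      0 < c ∧ (∀ h, ∑ κ, ‖R κ h‖ ^ 2 = c * ‖h‖ ^ 2) ∧
      (∀ w y κ, x w y κ = ∑ κ', a w κ κ' * y κ') ∧
      (∀ w y, ‖x w y‖ ≤ (‖u w‖ + δ) * ‖y‖) ∧ (∀ w, ‖u w - v w‖ ≤ 2 * δ) ∧
      ∀ w h h', c * ⟪h', v w h⟫_ℂ = ∑ κ, ∑ κ', a w κ κ' * ⟪R κ h', R κ' h⟫_ℂ := by
  classical
  choose p hp hpu using fun w => Metric.mem_closure_iff.1 (hu w) δ hδ
  have ev : ∀ᶠ N in atTop, ∀ w, dist (C.βN ξ N (p w)) (p w) < δ :=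
    eventually_all.2 (fun w => Metric.tendsto_nhds.1 (C.βN_tendsto hξ (hp w)) δ hδ)
  obtain ⟨N, hN, hN0⟩ := (ev.and (eventually_gt_atTop 0)).exists
  let e : KF N → H := fun κ => C.S κ.1 (C.wv ξ (2 * N))
  have he : Orthonormal ℂ e := by
    rw [orthonormal_iff_ite]
    intro κ κ'
    simp only [e, C.orthon hξ _ _ _ (len_KF κ) (len_KF κ'), Subtype.ext_iff]
  choose x hx1 hx2 using fun w => compress e he (p w)
  have hN' : (0 : ℝ) < N := by exact_mod_cast hN0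
  refine ⟨KF N, inferInstance, N, fun κ => star (C.S κ.1), fun w κ κ' => ⟪e κ, p w (e κ')⟫_ℂ, x,
    fun w => C.βN ξ N (p w), hN', fun h => ?_, hx1, fun w y => ?_, fun w => ?_,
    fun w h h' => ?_⟩
  · rw [sum_KF N (fun κ => ‖star (C.S κ) h‖ ^ 2)]
    simp [C.sum_S_norm]
  · refine (hx2 w y).trans (mul_le_mul_of_nonneg_right ?_ (norm_nonneg _))
    have h1 := hpu w
    rw [dist_eq_norm] at h1
    have h2 := norm_sub_norm_le (p w) (u w)
    rw [norm_sub_rev] at h2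
    linarith
  · have h1 := hpu w
    have h2 := hN w
    have h3 := dist_triangle_right (u w) (C.βN ξ N (p w)) (p w)
    rw [← dist_eq_norm]
    linarith
  · have hN2 : (N : ℂ) ≠ 0 := by exact_mod_cast hN0.ne'
    beta_reduce
    rw [Cuntz.βN, smul_apply, inner_smul_right, Complex.ofReal_natCast, ← mul_assoc,
      mul_inv_cancel₀ hN2, one_mul]
    simp only [e]
    rw [sum_KF N (fun κ => ∑ κ' : KF N, ⟪C.S κ (C.wv ξ (2 * N)), p w (C.S κ'.1 (C.wv ξ (2 * N)))⟫_ℂ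
      * ⟪star (C.S κ) h', star (C.S κ'.1) h⟫_ℂ)]
    rw [sum_apply, inner_sum]
    refine Finset.sum_congr rfl (fun i _ => ?_)
    rw [Finset.sum_congr rfl (fun κ _ => sum_KF N (fun κ' =>
      ⟪C.S κ (C.wv ξ (2 * N)), p w (C.S κ' (C.wv ξ (2 * N)))⟫_ℂ
      * ⟪star (C.S κ) h', star (C.S κ') h⟫_ℂ)), Finset.sum_comm, sum_apply, inner_sum]
    refine Finset.sum_congr rfl (fun i' _ => ?_)
    simp only [Cuntz.β, sum_apply, inner_sum, smul_apply, inner_smul_right, mul_apply_eq_comp]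
    refine Finset.sum_congr rfl (fun κ _ => Finset.sum_congr rfl (fun κ' _ => ?_))
    rw [ContinuousLinearMap.star_eq_adjoint (C.S κ), ContinuousLinearMap.adjoint_inner_left]

lemma exists_resolution {ι : Type*} [Finite ι] (v : ι → H) :
    ∃ (n : ℕ) (f : Fin n → H), ∀ a b, ⟪v a, v b⟫_ℂ = ∑ i, ⟪v a, f i⟫_ℂ * ⟪f i, v b⟫_ℂ := by
  let F := Submodule.span ℂ (Set.range v)
  have : FiniteDimensional ℂ F := FiniteDimensional.span_of_finite ℂ (Set.finite_range v)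
  let f := stdOrthonormalBasis ℂ F
  refine ⟨_, fun i => f i, fun a b => ?_⟩
  exact (f.sum_inner_mul_inner ⟨v a, Submodule.subset_span ⟨a, rfl⟩⟩
    ⟨v b, Submodule.subset_span ⟨b, rfl⟩⟩).symm

lemma re_lower (y z z' w : H) (t : ℝ) (h : ‖z - z'‖ ≤ t * ‖w‖) (ht : 0 ≤ t) :
    (1 - 1 / 20000 - t / 2) * ‖y‖ ^ 2 - 5000 * ‖z - y‖ ^ 2 - (t / 2) * ‖w‖ ^ 2
      ≤ (⟪y, z'⟫_ℂ).re := by
  have e : z' = y + (z - y) - (z - z') := by abel
  have h1 : (⟪y, y⟫_ℂ).re = ‖y‖ ^ 2 := inner_self_eq_norm_sq (𝕜 := ℂ) y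
  have h2 : |(⟪y, z - y⟫_ℂ).re| ≤ ‖y‖ * ‖z - y‖ :=
    (Complex.abs_re_le_norm _).trans (norm_inner_le_norm _ _)
  have h3 : (⟪y, z - z'⟫_ℂ).re ≤ ‖y‖ * ‖z - z'‖ := re_inner_le_norm (𝕜 := ℂ) _ _
  have h4 := mul_le_mul_of_nonneg_left h (norm_nonneg y)
  have h5 := mul_le_mul_of_nonneg_left (sq_nonneg (‖y‖ - ‖w‖)) ht
  rw [e, inner_sub_right, inner_add_right, Complex.sub_re, Complex.add_re, h1]
  have h6 := neg_abs_le (⟪y, z - y⟫_ℂ).re
  nlinarith [sq_nonneg (‖y‖ - 10000 * ‖z - y‖)]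

theorem nuc {G : Type*} [Group G] {g : Fin 4 → G} (hg : Gens g)
    (hgen : Subgroup.closure (Set.range g) = ⊤) (C : Cuntz H) {ξ : H} (hξ : ‖ξ‖ = 1)
    (u : Fin 4 → ZMod 17 → H →L[ℂ] H)
    (hu : ∀ i b, u i b ∈ closure (C.poly : Set (H →L[ℂ] H)))
    (hn : ∀ i b, ‖u i b‖ ≤ 1 + 1 / 100000) :
    ∃ d : ℕ, ∀ (I : Type) [Fintype I] (m : MonoAct G I),
      (∀ η η', η ≠ η' → ∃ γ, m.act γ η = η ∧ m.act γ η' = η' ∧ m.c γ η ≠ m.c γ η') →
      (∀ η, ∃ f : Fin d → G, Function.Injective (fun i => m.act (f i) η)) →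
      ∀ T : I → H, 0 < ∑ η, ‖T η‖ ^ 2 →
      ¬ (∑ i, ∑ b : ZMod 17, ∑ η,
        ‖u i b (T η) - m.c (g i ^ b.val) η • T (m.act (g i ^ b.val) η)‖ ^ 2
          ≤ (1 / 1000000) * ∑ η, ‖T η‖ ^ 2) := by
  obtain ⟨K, _, c, R, a, x, v, hc, hR, hxa, hx, huv, hv⟩ :=
    C.approx hξ (fun w : Fin 4 × ZMod 17 => u w.1 w.2) (fun w => hu _ _)
      (show (0 : ℝ) < 1 / 100000 by norm_num)
  refine ⟨2 * Module.finrank ℂ (EuclideanSpace ℂ K) + 1, fun I _ m hsep horb T hT hD => ?_⟩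
  set N := ∑ η, ‖T η‖ ^ 2 with hN
  obtain ⟨n, f, hf⟩ := exists_resolution (fun q : K × I => R q.1 (T q.2))
  let z : Fin n → I → EuclideanSpace ℂ K := fun i η => WithLp.toLp 2 (fun κ => ⟪f i, R κ (T η)⟫_ℂ)
  have hz : ∀ i η κ, z i η κ = ⟪f i, R κ (T η)⟫_ℂ := fun _ _ _ => rfl
  have s1 : ∑ i, ∑ η, ‖z i η‖ ^ 2 = c * N := by
    rw [Finset.sum_comm, hN, Finset.mul_sum]
    refine Finset.sum_congr rfl (fun η _ => ?_)
    simp only [EuclideanSpace.norm_sq_eq, hz]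
    rw [Finset.sum_comm, ← hR]
    refine Finset.sum_congr rfl (fun κ _ => ?_)
    rw [← inner_self_eq_norm_sq (𝕜 := ℂ), hf (κ, η) (κ, η), map_sum]
    refine Finset.sum_congr rfl (fun i _ => ?_)
    rw [← inner_conj_symm (R κ (T η)), Complex.conj_mul']; norm_cast
  have s2 : ∀ w η η', ∑ i, ⟪z i η', x w (z i η)⟫_ℂ = c * ⟪T η', v w (T η)⟫_ℂ := by
    intro w η η'
    rw [hv]
    simp only [PiLp.inner_apply, hxa, hz, RCLike.inner_apply, inner_conj_symm]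
    rw [Finset.sum_comm]
    refine Finset.sum_congr rfl (fun κ _ => ?_)
    simp only [Finset.sum_mul]
    rw [Finset.sum_comm]
    refine Finset.sum_congr rfl (fun κ' _ => ?_)
    rw [hf (κ, η') (κ', η), Finset.mul_sum]
    exact Finset.sum_congr rfl (fun i _ => by ring)
  let Q : Fin n → ℝ := fun j => ∑ i, ∑ b : ZMod 17, ∑ η,
    (⟪m.c (g i ^ b.val) η • z j (m.act (g i ^ b.val) η), x (i, b) (z j η)⟫_ℂ).re
  have s3 : ∑ j, Q j = c * ∑ i, ∑ b : ZMod 17, ∑ η,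
      (⟪m.c (g i ^ b.val) η • T (m.act (g i ^ b.val) η), v (i, b) (T η)⟫_ℂ).re := by
    rw [Finset.sum_comm, Finset.mul_sum]
    refine Finset.sum_congr rfl (fun i _ => ?_)
    rw [Finset.sum_comm, Finset.mul_sum]
    refine Finset.sum_congr rfl (fun b _ => ?_)
    rw [Finset.sum_comm, Finset.mul_sum]
    refine Finset.sum_congr rfl (fun η _ => ?_)
    simp only [inner_smul_left]
    rw [← Complex.re_sum, ← Finset.mul_sum, s2, mul_left_comm, Complex.re_ofReal_mul]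
  have s4 : 68 * (1 - 1 / 20000 - 2 / 100000) * N - 5000 * ((1 / 1000000) * N)
      ≤ ∑ i, ∑ b : ZMod 17, ∑ η,
      (⟪m.c (g i ^ b.val) η • T (m.act (g i ^ b.val) η), v (i, b) (T η)⟫_ℂ).re := by
    refine le_trans ?_ (Finset.sum_le_sum (fun i _ => Finset.sum_le_sum (fun b _ =>
      Finset.sum_le_sum (fun η _ => re_lower _ (u i b (T η)) _ (T η) (2 * (1 / 100000))
        (((u i b - v (i, b)).le_opNorm (T η)).trans
          (mul_le_mul_of_nonneg_right (huv (i, b)) (norm_nonneg _))) (by norm_num)))))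
    have e1 : ∀ γ, ∑ η, ‖m.c γ η • T (m.act γ η)‖ ^ 2 = N := fun γ => by
      simp only [norm_smul, m.norm_c, one_mul]
      exact Equiv.sum_comp (m.act γ) (fun η => ‖T η‖ ^ 2)
    simp only [Finset.sum_sub_distrib, ← Finset.mul_sum, e1, ← hN, Finset.sum_const,
      Finset.card_univ, ZMod.card, Fintype.card_fin, nsmul_eq_mul]
    push_cast
    linarith
  have s5 : ∑ j, (68 * (1 - 1 / 2500) * (1 + 2 / 100000)) * ∑ η, ‖z j η‖ ^ 2 < ∑ j, Q j := by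
    rw [← Finset.mul_sum, s1, s3]
    have := mul_le_mul_of_nonneg_left s4 hc.le
    have := mul_pos hc hT
    nlinarith
  obtain ⟨j, -, hj⟩ := Finset.exists_lt_of_sum_lt s5
  have zpos : 0 < ∑ η, ‖z j η‖ ^ 2 := by
    refine lt_of_le_of_ne (by positivity) (fun h0 => ?_)
    have h1 : ∀ η, z j η = 0 := fun η => by
      have := (Finset.sum_eq_zero_iff_of_nonneg (fun _ _ => sq_nonneg _)).1 h0.symm η
        (Finset.mem_univ _)
      simpa using this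
    simp [Q, h1] at hj
  have := rank_lemma m hg hgen hsep _ horb
    (fun i b => (((1 + 2 / 100000 : ℝ)⁻¹ : ℝ) : ℂ) • x (i, b)) (fun i b y => by
      rw [LinearMap.smul_apply, norm_smul, Complex.norm_real, Real.norm_eq_abs,
        abs_of_pos (by norm_num)]
      have h1 := hx (i, b) y
      have h2 := mul_le_mul_of_nonneg_right (hn i b) (norm_nonneg y)
      simp only at h1
      nlinarith) (z j) zpos (by
      simp only [LinearMap.smul_apply, inner_smul_right, Complex.re_ofReal_mul, ← Finset.mul_sum]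
      simp only [Q] at hj
      linarith)
  omega

end Vale.Agent.P083
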