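import Vale.Agent.P083.Grp

open scoped InnerProductSpace ENNReal

set_option linter.unusedSectionVars false

namespace Vale.Agent.P083

/-- square summable functions -/
abbrev L2 (X : Type) : Type := lp (fun _ : X => ℂ) 2

section
variable {X : Type}

open Classical in
/-- basis vectors -/
noncomputable def bv (x : X) : L2 X := lp.single 2 x 1

open Classical in
lemma inner_bv (x y : X) : ⟪bv x, bv y⟫_ℂ = if x = y then 1 else 0 := by
  rw [bv, bv, lp.inner_single_left, lp.single_apply]
  by_cases h : x = y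
  · subst h; simp
  · simp [h]

lemma op_ext {S T : L2 X →L[ℂ] L2 X} (h : ∀ x, S (bv x) = T (bv x)) : S = T := by
  classical
  refine lp.ext_continuousLinearMap (by norm_num) (fun x => ?_)
  ext1
  exact h x

lemma vec_ext {v : L2 X} (h : ∀ x, ⟪bv x, v⟫_ℂ = 0) : v = 0 := by
  classical
  ext x
  have := h x
  rw [bv, lp.inner_single_left] at this
  simpa using this

lemma exists_wiso (f : X → X) (hf : Function.Injective f) (φ : X → ℂ) (hφ : ∀ x, ‖φ x‖ = 1) :
    ∃ W : L2 X →L[ℂ] L2 X, star W * W = 1 ∧ ∀ x, W (bv x) = φ x • bv (f x) := by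
  classical
  have ho : Orthonormal ℂ (fun x => φ x • bv (f x)) := by
    rw [orthonormal_iff_ite]
    intro x y
    rw [inner_smul_left, inner_smul_right, inner_bv]
    by_cases h : x = y
    · subst h; simp [Complex.conj_mul', hφ]
    · simp [h, hf.eq_iff]
  let W := ho.orthogonalFamily.linearIsometry
  refine ⟨W.toContinuousLinearMap, ?_, fun x => ?_⟩
  · exact W.adjoint_comp_self
  · have := ho.orthogonalFamily.linearIsometry_apply_single (i := x) (1 : ℂ)
    rw [LinearIsometry.toSpanSingleton_apply, one_smul] at this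
    exact this

end

/-- the index set of the model -/
abbrev Idx : Type := Om × List Om

/-- the operators of the model -/
abbrev Bop : Type := L2 Idx →L[ℂ] L2 Idx

lemma exists_ops : ∃ (u : Gam → Bop) (J : ZMod 17 → Bop) (v : Bop),
    (∀ γ γ', u (γ * γ') = u γ * u γ') ∧ u 1 = 1 ∧ (∀ γ, star (u γ) * u γ = 1) ∧
    (∀ c, star (J c) * J c = 1) ∧ star v * v = 1 ∧
    (∀ γ, u γ * v = mOm.c γ om0.1 • v) ∧
    ∀ (γ γ' : Gam) (c c' a : ZMod 17) (φ : ℂ), (∀ η : Om, η 0 = a →
      mOm.act γ (cons c η) = cons c' (mOm.act γ' η) ∧ mOm.c γ (cons c η) = φ * mOm.c γ' η) →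
      (u γ * J c - φ • (J c' * u γ')) * ∑ b : ZMod 17, ψ (-(b * a)) • u (gen 3 ^ b.val) = 0 := by
  choose u hu1 hu2 using fun γ : Gam => exists_wiso (X := Idx) (fun x => (mOm.act γ x.1, x.2))
    (fun x y h => Prod.ext ((mOm.act γ).injective (Prod.mk.inj h).1) (Prod.mk.inj h).2)
    (fun x => mOm.c γ x.1) (fun x => mOm.norm_c _ _)
  choose J hJ1 hJ2 using fun c : ZMod 17 => exists_wiso (X := Idx) (fun x => (cons c x.1, x.2))
    (fun x y h => Prod.ext (cons_inj c (Prod.mk.inj h).1) (Prod.mk.inj h).2)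
    (fun _ => 1) (fun _ => norm_one)
  obtain ⟨v, hv1, hv2⟩ := exists_wiso (X := Idx) (fun x => (om0.1, x.1 :: x.2))
    (fun x y h => by
      have := congrArg Prod.snd h
      simp only [List.cons.injEq] at this
      exact Prod.ext this.1 this.2)
    (fun _ => 1) (fun _ => norm_one)
  refine ⟨u, J, v, fun γ γ' => op_ext (fun x => ?_), op_ext (fun x => ?_), hu1, hJ1, hv1,
    fun γ => op_ext (fun x => ?_), fun γ γ' c c' a φ h => op_ext (fun x => ?_)⟩
  · simp only [mul_apply_eq_comp, hu2, map_smul, map_mul, Equiv.Perm.mul_apply, mOm.cocycle,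
      smul_smul, mul_comm]
  · simp [hu2, mOm.c_one]
  · have : mOm.act γ om0.1 = om0.1 :=
      congrArg Subtype.val (Subsingleton.elim ((mL 0).act γ om0) om0)
    simp only [mul_apply_eq_comp, hv2, one_smul, hu2, smul_apply, this]
  · have e1 : (∑ b : ZMod 17, ψ (-(b * a)) • u (gen 3 ^ b.val)) (bv x)
        = (∑ b : ZMod 17, ψ (b * (x.1 0 - a))) • bv x := by
      rw [sum_apply, Finset.sum_smul]
      refine Finset.sum_congr rfl (fun b _ => ?_)
      rw [smul_apply, hu2, tau_act, tau_c, smul_smul, ← AddChar.map_add_eq_mul]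
      congr 2; ring
    rw [mul_apply_eq_comp, e1, map_smul]
    by_cases h0 : x.1 0 = a
    · obtain ⟨h1, h2⟩ := h x.1 h0
      simp only [sub_apply, smul_apply, mul_apply_eq_comp, hJ2, hu2, one_smul, map_smul, h1, h2,
        smul_smul, sub_self, smul_zero, zero_apply]
    · rw [ψ, AddChar.sum_mulShift _ (ZMod.isPrimitive_stdAddChar 17), if_neg (sub_ne_zero.2 h0)]
      simp

instance : Countable Gam := by
  have : Countable (FreeGroup (Fin 4)) := inferInstanceAs (Countable (Quot _))
  refine Function.Surjective.countable (f := FreeGroup.lift gen) ?_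
  rw [← MonoidHom.range_eq_top, FreeGroup.range_lift_eq_closure, gen_top]

lemma isSeparable_adjoin {B : Type} [CStarAlgebra B] {s : Set B} (hs : s.Countable) :
    TopologicalSpace.IsSeparable
      ((StarAlgebra.adjoin ℂ s).topologicalClosure : Set B) := by
  refine TopologicalSpace.IsSeparable.closure ?_
  have h1 : (s ∪ star s).Countable := hs.union (hs.preimage star_injective)
  have h2 : (Submonoid.closure (s ∪ star s) : Set B).Countable := by
    have := h1.to_subtype
    have : Countable (FreeMonoid (s ∪ star s : Set B)) := inferInstanceAs (Countable (List _))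
    rw [Submonoid.closure_eq_mrange, MonoidHom.coe_mrange]
    exact Set.countable_range _
  have h3 := h2.isSeparable.span (R := ℂ)
  rw [← StarAlgebra.adjoin_eq_span] at h3
  exact h3

/-- the relations of the model, in an abstract star algebra -/
structure Rel {A : Type} [Ring A] [StarRing A] [Algebra ℂ A]
    (u : Gam → A) (J : ZMod 17 → A) (v : A) : Prop where
  mul : ∀ γ γ', u (γ * γ') = u γ * u γ'
  one : u 1 = 1
  iso : ∀ γ, star (u γ) * u γ = 1
  isoJ : ∀ c, star (J c) * J c = 1
  isov : star v * v = 1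
  base : ∀ γ, u γ * v = mOm.c γ om0.1 • v
  step : ∀ (γ γ' : Gam) (c c' a : ZMod 17) (φ : ℂ), (∀ η : Om, η 0 = a →
    mOm.act γ (cons c η) = cons c' (mOm.act γ' η) ∧ mOm.c γ (cons c η) = φ * mOm.c γ' η) →
    (u γ * J c - φ • (J c' * u γ')) * ∑ b : ZMod 17, ψ (-(b * a)) • u (gen 3 ^ b.val) = 0

theorem exists_model : ∃ (A : Type) (_ : CStarAlgebra A), TopologicalSpace.SeparableSpace A ∧
    Nontrivial A ∧ ∃ (u : Gam → A) (J : ZMod 17 → A) (v : A), Rel u J v := by
  obtain ⟨u, J, v, h1, h2, h3, h4, h5, h6, h7⟩ := exists_ops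
  let s : Set Bop := Set.range u ∪ Set.range J ∪ {v}
  have hs : s.Countable :=
    ((Set.countable_range u).union (Set.countable_range J)).union (Set.countable_singleton v)
  let A := (StarAlgebra.adjoin ℂ s).topologicalClosure
  have hcl : IsClosed (A : Set Bop) := StarSubalgebra.isClosed_topologicalClosure _
  have mem : ∀ x ∈ s, x ∈ A := fun x hx =>
    StarSubalgebra.le_topologicalClosure _ (StarAlgebra.subset_adjoin ℂ s hx)
  have : Nontrivial (L2 Idx) := ⟨⟨bv (0, []), 0, fun h => by
    have := inner_bv ((0, []) : Idx) (0, [])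
    rw [h] at this
    simp at this⟩⟩
  refine ⟨A, inferInstance, (isSeparable_adjoin hs).separableSpace, inferInstance,
    fun γ => ⟨u γ, mem _ (Or.inl (Or.inl ⟨γ, rfl⟩))⟩,
    fun c => ⟨J c, mem _ (Or.inl (Or.inr ⟨c, rfl⟩))⟩, ⟨v, mem _ (Or.inr rfl)⟩,
    fun γ γ' => Subtype.ext (h1 γ γ'), Subtype.ext h2, fun γ => Subtype.ext (h3 γ),
    fun c => Subtype.ext (h4 c), Subtype.ext h5, fun γ => Subtype.ext (h6 γ),
    fun γ γ' c c' a φ h => Subtype.ext ?_⟩
  simpa using h7 γ γ' c c' a φ h

end Vale.Agent.P083
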