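import Vale.Agent.P083.Defs
import Vale.Agent.P083.Nuc
import Vale.Agent.P083.Gns
import Vale.Agent.P083.Ops
import Vale.Agent.P083.Core

open scoped InnerProductSpace
open Filter Topology

namespace Vale.Agent.P083

variable (O : Type) [CStarAlgebra O] [Nontrivial O] (ω : Ultrafilter ℕ)

/-- the quotient map onto the ultrapower -/
noncomputable def qmap : BoundedSeq O →⋆ₐ[ℂ] Ultrapower O ω where
  toFun x := (nullIdeal O ω).ringCon.mk' x
  map_one' := rfl
  map_mul' _ _ := rfl
  map_zero' := rfl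
  map_add' _ _ := rfl
  commutes' _ := rfl
  map_star' _ := rfl

lemma qmap_surj : Function.Surjective (qmap O ω) := Quotient.mk''_surjective

lemma qmap_eq {x y : BoundedSeq O} (h : qmap O ω x = qmap O ω y) :
    Tendsto (fun j => ‖(x - y) j‖) ω (𝓝 0) := by
  have h1 : x - y ∈ nullIdeal O ω :=
    (TwoSidedIdeal.rel_iff _ _ _).1 ((RingCon.eq _).1 h)
  rwa [nullIdeal, TwoSidedIdeal.mem_mk'] at h1

/-- evaluation at an index -/
noncomputable def evj (j : ℕ) : BoundedSeq O →⋆ₐ[ℂ] O where
  toFun x := x j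
  map_one' := rfl
  map_mul' _ _ := rfl
  map_zero' := rfl
  map_add' _ _ := rfl
  commutes' _ := rfl
  map_star' _ := rfl

variable {O ω}

theorem no_hom {A : Type} [CStarAlgebra A] {u : Gam → A} {J : ZMod 17 → A} {v : A}
    (hR : Rel u J v) {s t : O} (hst : IsCuntzGenerated O s t)
    (π : A →⋆ₐ[ℂ] Ultrapower O ω) : False := by
  obtain ⟨H, _, _, _, ρ, ξ, hξ⟩ := exists_rep O
  choose l hl using fun a : A => qmap_surj O ω (π a)
  let ev : ℕ → BoundedSeq O →⋆ₐ[ℂ] (H →L[ℂ] H) := fun j => ρ.comp (evj O j)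
  have ev_le' : ∀ j x, ‖ev j x‖ ≤ ‖x j‖ := fun j x => NonUnitalStarAlgHom.norm_apply_le ρ (x j)
  have tz : ∀ x y, qmap O ω x = qmap O ω y → Tendsto (fun j => ‖ev j x - ev j y‖) ω (𝓝 0) :=
    fun x y h => squeeze_zero (fun _ => norm_nonneg _)
      (fun j => by rw [← map_sub]; exact ev_le' j _) (qmap_eq O ω h)
  have iso : ∀ a : A, star a * a = 1 →
      Tendsto (fun j => ‖star (ev j (l a)) * ev j (l a) - 1‖) ω (𝓝 0) := fun a ha => by
    simpa only [map_mul, map_star, map_one] using tz (star (l a) * l a) 1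
      (by rw [map_mul, map_star, hl, ← map_star, ← map_mul, ha, map_one, map_one])
  have hA : Asym ω (fun j γ => ev j (l (u γ))) (fun j c => ev j (l (J c)))
      (fun j => ev j (l v)) :=
    { bdd := fun γ => ⟨‖l (u γ)‖, fun j =>
        (ev_le' j _).trans (lp.norm_apply_le_norm ENNReal.top_ne_zero _ j)⟩
      mul := fun γ γ' => by
        simpa only [map_mul] using tz (l (u (γ * γ'))) (l (u γ) * l (u γ'))
          (by rw [map_mul, hl, hl, hl, hR.mul, map_mul])
      one := by
        simpa only [map_one] using tz (l (u 1)) 1 (by rw [hl, hR.one, map_one, map_one])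
      iso := fun γ => iso _ (hR.iso γ)
      isoJ := fun c => iso _ (hR.isoJ c)
      isoV := iso _ hR.isov
      base := fun γ => by
        simpa only [map_mul, map_smul] using tz (l (u γ) * l v) (mOm.c γ om0.1 • l v)
          (by rw [map_mul, map_smul, hl, hl, ← map_mul, hR.base, map_smul])
      step := fun γ γ' c c' a φ h => by
        have h1 := congrArg π (hR.step γ γ' c c' a φ h)
        simpa only [map_mul, map_smul, map_sub, map_sum, map_zero, sub_zero] using
          tz ((l (u γ) * l (J c) - φ • (l (J c') * l (u γ')))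
            * ∑ b : ZMod 17, ψ (-(b * a)) • l (u (gen 3 ^ b.val))) 0
            (by simpa only [map_mul, map_smul, map_sub, map_sum, map_zero, hl] using h1) }
  obtain ⟨j, h1, h2⟩ := ((core hA hξ).and (eventually_all.2 (fun i : Fin 4 => eventually_all.2
    (fun b : ZMod 17 => ev_le (hA.iso (gen i ^ b.val))
      (show (0 : ℝ) < 1 / 100000 by norm_num))))).exists
  obtain ⟨c1, c2, c3, c4⟩ := hst
  let C : Cuntz H :=
    { s := fun b => ρ (cond b t s)
      iso := fun b => by
        cases b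
        · rw [← map_star, ← map_mul]; exact (congrArg ρ c1).trans (map_one ρ)
        · rw [← map_star, ← map_mul]; exact (congrArg ρ c2).trans (map_one ρ)
      sum := by
        rw [← map_star, ← map_star, ← map_mul, ← map_mul, ← map_add]
        exact (congrArg ρ c3).trans (map_one ρ) }
  have hρ : ∀ a : O, ρ a ∈ closure (C.poly : Set (H →L[ℂ] H)) := by
    intro a
    have ha : a ∈ closure (StarAlgebra.adjoin ℂ {s, t} : Set O) := by
      rw [← StarSubalgebra.topologicalClosure_coe, c4]; trivial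
    refine map_mem_closure (AddMonoidHomClass.continuous_of_bound ρ 1
      (fun x => by simpa using NonUnitalStarAlgHom.norm_apply_le ρ x)) ha (fun x hx => C.adjoin_le_poly ?_)
    have h3 : StarAlgebra.adjoin ℂ {s, t}
        ≤ (StarAlgebra.adjoin ℂ {C.s false, C.s true}).comap ρ := by
      refine StarAlgebra.adjoin_le ?_
      rintro y (rfl | rfl)
      · exact StarAlgebra.subset_adjoin ℂ _ (Or.inl rfl)
      · exact StarAlgebra.subset_adjoin ℂ _ (Or.inr rfl)
    exact h3 hx
  obtain ⟨d, hd⟩ := nuc gens_gen gen_top C hξ (fun i b => ev j (l (u (gen i ^ b.val))))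
    (fun i b => hρ _) (fun i b => iso_upper (h2 i b))
  obtain ⟨T, hT1, hT2⟩ := h1 (3 * d)
  exact hd (L (3 * d)) (mL (3 * d)) (mL_sep _) (mL_orb d) T hT1 hT2

theorem exists_cuntz : ∃ (O : Type) (_ : CStarAlgebra O) (_ : Nontrivial O) (s t : O),
    IsCuntzGenerated O s t := by
  classical
  obtain ⟨s, hs1, hs2⟩ := exists_wiso (X := ℕ) (fun n => 2 * n) (fun x y h => by
    simpa using h) (fun _ => 1) (fun _ => norm_one)
  obtain ⟨t, ht1, ht2⟩ := exists_wiso (X := ℕ) (fun n => 2 * n + 1) (fun x y h => by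
    simpa using h) (fun _ => 1) (fun _ => norm_one)
  simp only [one_smul] at hs2 ht2
  have h1 : ∀ n, star s (bv (2 * n)) = bv n := fun n => by
    rw [← hs2, ← mul_apply_eq_comp, hs1]; rfl
  have h2 : ∀ n, star t (bv (2 * n + 1)) = bv n := fun n => by
    rw [← ht2, ← mul_apply_eq_comp, ht1]; rfl
  have h3 : ∀ n, star s (bv (2 * n + 1)) = 0 := fun n => vec_ext (fun m => by
    rw [ContinuousLinearMap.star_eq_adjoint, ContinuousLinearMap.adjoint_inner_right, hs2,
      inner_bv, if_neg (by omega)])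
  have h4 : ∀ n, star t (bv (2 * n)) = 0 := fun n => vec_ext (fun m => by
    rw [ContinuousLinearMap.star_eq_adjoint, ContinuousLinearMap.adjoint_inner_right, ht2,
      inner_bv, if_neg (by omega)])
  have h5 : s * star s + t * star t = 1 := op_ext (fun n => by
    obtain ⟨n, rfl | rfl⟩ := Nat.even_or_odd' n
    · simp [h1, h4, hs2]
    · simp [h2, h3, ht2])
  let A := (StarAlgebra.adjoin ℂ {s, t}).topologicalClosure
  have hcl : IsClosed (A : Set (L2 ℕ →L[ℂ] L2 ℕ)) := StarSubalgebra.isClosed_topologicalClosure _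
  have mem : ∀ x ∈ ({s, t} : Set _), x ∈ A := fun x hx =>
    StarSubalgebra.le_topologicalClosure _ (StarAlgebra.subset_adjoin ℂ _ hx)
  have : Nontrivial (L2 ℕ) := ⟨⟨bv 0, 0, fun h => by
    have := inner_bv (0 : ℕ) 0
    rw [h] at this
    simp at this⟩⟩
  refine ⟨A, inferInstance, inferInstance, ⟨s, mem _ (Or.inl rfl)⟩, ⟨t, mem _ (Or.inr rfl)⟩,
    Subtype.ext hs1, Subtype.ext ht1, Subtype.ext h5, ?_⟩
  rw [eq_top_iff]
  rintro x -
  rw [← SetLike.mem_coe, StarSubalgebra.topologicalClosure_coe,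
    Topology.IsEmbedding.subtypeVal.closure_eq_preimage_closure_image]
  refine closure_mono ?_ x.2
  have h6 : StarAlgebra.adjoin ℂ {s, t} ≤ (StarAlgebra.adjoin ℂ
      {(⟨s, mem _ (Or.inl rfl)⟩ : A), ⟨t, mem _ (Or.inr rfl)⟩}).map A.subtype := by
    refine StarAlgebra.adjoin_le ?_
    rintro y (rfl | rfl)
    · exact ⟨_, StarAlgebra.subset_adjoin ℂ _ (Or.inl rfl), rfl⟩
    · exact ⟨_, StarAlgebra.subset_adjoin ℂ _ (Or.inr rfl), rfl⟩
  exact h6

theorem main : ∃ (A : Type) (_ : CStarAlgebra A), Nontrivial A ∧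
    TopologicalSpace.SeparableSpace A ∧
    ∀ (O : Type) [CStarAlgebra O] [Nontrivial O] (s t : O), IsCuntzGenerated O s t →
      ∀ ω : Ultrafilter ℕ, IsEmpty (A →⋆ₐ[ℂ] Ultrapower O ω) := by
  obtain ⟨A, _, h1, h2, u, J, v, hR⟩ := exists_model
  exact ⟨A, inferInstance, h2, h1, fun O _ _ s t hst ω => ⟨fun π => no_hom hR hst π⟩⟩

end Vale.Agent.P083
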