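import Vale.Agent.P083.Dom

open scoped InnerProductSpace

set_option linter.unusedSectionVars false

namespace Vale.Agent.P083

section
variable {I : Type*} [Fintype I] [DecidableEq I]

/-- the matrix of an operator, as a vector -/
noncomputable def mat (Y : EuclideanSpace ℂ I →ₗ[ℂ] EuclideanSpace ℂ I) :
    EuclideanSpace ℂ (I × I) :=
  WithLp.toLp 2 (fun p => Y (EuclideanSpace.single p.2 1) p.1)

lemma mat_apply (Y : EuclideanSpace ℂ I →ₗ[ℂ] EuclideanSpace ℂ I) (p : I × I) :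
    mat Y p = Y (EuclideanSpace.single p.2 1) p.1 := rfl

lemma mat_sub (Y Z : EuclideanSpace ℂ I →ₗ[ℂ] EuclideanSpace ℂ I) :
    mat (Y - Z) = mat Y - mat Z := by
  ext p; simp [mat_apply]

lemma mat_norm (Y : EuclideanSpace ℂ I →ₗ[ℂ] EuclideanSpace ℂ I) :
    ‖mat Y‖ ^ 2 = ∑ η, ‖Y (EuclideanSpace.single η 1)‖ ^ 2 := by
  rw [EuclideanSpace.norm_sq_eq, Fintype.sum_prod_type_right]
  refine Finset.sum_congr rfl (fun η _ => ?_)
  rw [EuclideanSpace.norm_sq_eq]; rfl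

variable {G : Type*} [Group G] (m : MonoAct G I)

lemma urep_inv_single (γ : G) (η : I) :
    m.urep.ρ γ⁻¹ (EuclideanSpace.single (m.act γ η) 1)
      = (starRingEnd ℂ) (m.c γ η) • EuclideanSpace.single η 1 := by
  rw [m.urep_single, m.c_inv, m.act_inv]

lemma mat_ad (γ : G) (Y : EuclideanSpace ℂ I →ₗ[ℂ] EuclideanSpace ℂ I) :
    m.ad.urep.ρ γ (mat Y) = mat (m.urep.ρ γ * Y * m.urep.ρ γ⁻¹) := by
  ext ⟨η, η'⟩
  obtain ⟨η', rfl⟩ := (m.act γ).surjective η'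
  rw [mat_apply, MonoAct.urep_apply, Module.End.mul_apply, Module.End.mul_apply,
    urep_inv_single, map_smul, map_smul, PiLp.smul_apply, MonoAct.urep_apply]
  have : m.ad.act γ⁻¹ (η, m.act γ η') = (m.act γ⁻¹ η, η') := by
    simp [MonoAct.ad]
  rw [this, mat_apply]
  simp [MonoAct.ad]; ring

variable {V : Type*} [NormedAddCommGroup V] [InnerProductSpace ℂ V] [CompleteSpace V]

lemma abs_sq_sub_le (p q : V) :
    |‖p‖ ^ 2 - ‖q‖ ^ 2| ≤ 32 * ‖p - q‖ ^ 2 + (1 / 64) * (‖p‖ ^ 2 + ‖q‖ ^ 2) := by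
  have h1 := abs_norm_sub_norm_le p q
  have e : ‖p‖ ^ 2 - ‖q‖ ^ 2 = (‖p‖ - ‖q‖) * (‖p‖ + ‖q‖) := by ring
  rw [e, abs_mul, abs_of_nonneg (by positivity : 0 ≤ ‖p‖ + ‖q‖)]
  have h2 := mul_le_mul_of_nonneg_right h1 (by positivity : 0 ≤ ‖p‖ + ‖q‖)
  nlinarith [sq_nonneg (64 * ‖p - q‖ - (‖p‖ + ‖q‖)), sq_nonneg (‖p‖ - ‖q‖)]

lemma ad_defect (γ : G) (X : EuclideanSpace ℂ I →ₗ[ℂ] V)
    (A : EuclideanSpace ℂ I →ₗ[ℂ] EuclideanSpace ℂ I) (hA : A.IsSymmetric)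
    (hA' : ∀ h, 0 ≤ (⟪h, A h⟫_ℂ).re) (hAX : ∀ h, ‖A h‖ = ‖X h‖)
    (x : V →ₗ[ℂ] V) (hx : ∀ v, ‖x v‖ ≤ ‖v‖) (T : I → V)
    (hT : ∀ η, X (EuclideanSpace.single η 1) = T η) :
    ‖m.ad.urep.ρ γ (mat A) - mat A‖ ^ 2 ≤ 66 * (∑ η, ‖T η‖ ^ 2
      - ∑ η, (⟪m.c γ η • T (m.act γ η), x (T η)⟫_ℂ).re) + (1 / 32) * ∑ η, ‖T η‖ ^ 2 := by
  set B := m.urep.ρ γ * A * m.urep.ρ γ⁻¹ with hB
  have hBs : B.IsSymmetric := by
    intro h h'
    simp only [hB, Module.End.mul_apply]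
    rw [m.urep.inner_left, hA, m.urep.inner_left, inv_inv]
  have hBp : ∀ h, 0 ≤ (⟪h, B h⟫_ℂ).re := by
    intro h
    simp only [hB, Module.End.mul_apply]
    have := m.urep.inner_left γ⁻¹ h (A (m.urep.ρ γ⁻¹ h))
    rw [inv_inv] at this
    rw [← this]; exact hA' _
  have hBX : ∀ h, ‖B h‖ = ‖(X ∘ₗ m.urep.ρ γ⁻¹) h‖ := by
    intro h
    simp only [hB, Module.End.mul_apply, LinearMap.comp_apply]
    rw [m.urep.norm_map, hAX]
  obtain ⟨f, hf⟩ := ps_ineq A B hA hBs hA' hBp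
  let e := EuclideanSpace.basisFun I ℂ
  have he : ∀ η, e η = EuclideanSpace.single η 1 := fun η => EuclideanSpace.basisFun_apply _ _ _
  set Y : EuclideanSpace ℂ I →ₗ[ℂ] V := x ∘ₗ X ∘ₗ m.urep.ρ γ⁻¹ with hY
  set N := ∑ η, ‖T η‖ ^ 2 with hN
  set s := ∑ η, ‖x (T η)‖ ^ 2 with hs
  set R := ∑ η, (⟪m.c γ η • T (m.act γ η), x (T η)⟫_ℂ).re with hR
  have nc : ∀ η, ‖(starRingEnd ℂ) (m.c γ η)‖ = 1 := fun η => by simp [m.norm_c]
  have s1 : ∑ i, ‖X (f i)‖ ^ 2 = N := by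
    rw [hs_eq f e]; simp only [he, hT, hN]
  have s2 : ∑ i, ‖(X ∘ₗ m.urep.ρ γ⁻¹) (f i)‖ ^ 2 = N := by
    rw [hs_eq f e, ← Equiv.sum_comp (m.act γ)]
    simp only [he, LinearMap.comp_apply, urep_inv_single, map_smul, norm_smul, nc, hT, one_mul, hN]
  have s3 : ∑ i, ‖Y (f i)‖ ^ 2 = s := by
    rw [hs_eq f e, ← Equiv.sum_comp (m.act γ)]
    simp only [he, hY, LinearMap.comp_apply, urep_inv_single, map_smul, norm_smul, nc, hT,
      one_mul, hs]
  have s4 : ∑ i, ‖(X - Y) (f i)‖ ^ 2 = N - 2 * R + s := by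
    rw [hs_eq f e, ← Equiv.sum_comp (m.act γ), hN,
      ← Equiv.sum_comp (m.act γ) (fun η => ‖T η‖ ^ 2), hR, hs,
      Finset.mul_sum, ← Finset.sum_sub_distrib, ← Finset.sum_add_distrib]
    refine Finset.sum_congr rfl (fun η _ => ?_)
    simp only [he, hY, LinearMap.sub_apply, LinearMap.comp_apply, urep_inv_single, map_smul, hT]
    rw [@norm_sub_sq ℂ, norm_smul, nc, one_mul, inner_smul_right, inner_smul_left]
    rfl
  have s5 : s ≤ N := Finset.sum_le_sum (fun η _ => pow_le_pow_left₀ (norm_nonneg _) (hx _) 2)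
  have s6 : 0 ≤ N - 2 * R + s := by rw [← s4]; positivity
  have key : ‖m.ad.urep.ρ γ (mat A) - mat A‖ ^ 2
      ≤ (N - s) + (32 * (N - 2 * R + s) + (1 / 64) * (N + s)) := by
    rw [norm_sub_rev, mat_ad, ← mat_sub, mat_norm]
    simp only [← he]
    rw [← hs_eq f e, ← hB]
    conv_rhs => rw [← s4]
    nth_rewrite 1 [← s2]
    rw [← s1, ← s3, ← Finset.sum_sub_distrib, ← Finset.sum_add_distrib, Finset.mul_sum,
      Finset.mul_sum, ← Finset.sum_add_distrib, ← Finset.sum_add_distrib]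
    refine Finset.sum_le_sum (fun i _ => (hf i).trans ?_)
    rw [hAX, hBX]
    have a1 := abs_sq_sub_le (X (f i)) (Y (f i))
    have a2 : ‖Y (f i)‖ ^ 2 ≤ ‖(X ∘ₗ m.urep.ρ γ⁻¹) (f i)‖ ^ 2 :=
      pow_le_pow_left₀ (norm_nonneg _) (hx _) 2
    rw [LinearMap.sub_apply]
    have a3 := abs_sub_le (‖X (f i)‖ ^ 2) (‖Y (f i)‖ ^ 2) (‖(X ∘ₗ m.urep.ρ γ⁻¹) (f i)‖ ^ 2)
    rw [abs_of_nonpos (sub_nonpos.2 a2)] at a3
    linarith
  linarith

end

theorem rank_lemma {G I V : Type*} [Group G] [Fintype I] [NormedAddCommGroup V]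
    [InnerProductSpace ℂ V] [FiniteDimensional ℂ V]
    (m : MonoAct G I) {g : Fin 4 → G} (hg : Gens g)
    (hgen : Subgroup.closure (Set.range g) = ⊤)
    (hsep : ∀ η η', η ≠ η' → ∃ γ, m.act γ η = η ∧ m.act γ η' = η' ∧ m.c γ η ≠ m.c γ η')
    (d : ℕ) (horb : ∀ η, ∃ f : Fin d → G, Function.Injective (fun i => m.act (f i) η))
    (x : Fin 4 → ZMod 17 → V →ₗ[ℂ] V) (hx : ∀ i b v, ‖x i b v‖ ≤ ‖v‖)
    (T : I → V) (hT : 0 < ∑ η, ‖T η‖ ^ 2)
    (h : 68 * (1 - 1 / 2500) * ∑ η, ‖T η‖ ^ 2 ≤ ∑ i, ∑ b : ZMod 17, ∑ η,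
      (⟪m.c (g i ^ b.val) η • T (m.act (g i ^ b.val) η), x i b (T η)⟫_ℂ).re) :
    d ≤ 2 * Module.finrank ℂ V := by
  classical
  have : CompleteSpace V := FiniteDimensional.complete ℂ V
  let e := EuclideanSpace.basisFun I ℂ
  have he : ∀ η, e η = EuclideanSpace.single η 1 := fun η => EuclideanSpace.basisFun_apply _ _ _
  let X : EuclideanSpace ℂ I →ₗ[ℂ] V := e.toBasis.constr ℂ T
  have hX : ∀ η, X (EuclideanSpace.single η 1) = T η := fun η => by
    rw [← he]; exact e.toBasis.constr_basis ℂ T η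
  obtain ⟨f, α, A, hα, hA, hAX, hXo⟩ := exists_sqrt X
  have hAs := diag_symm f A α hA
  have hAp : ∀ h, 0 ≤ (⟪h, A h⟫_ℂ).re := fun h => by
    rw [diag_re f A α hA]
    exact Finset.sum_nonneg (fun i _ => mul_nonneg (hα i) (sq_nonneg _))
  set N := ∑ η, ‖T η‖ ^ 2 with hN
  set U := m.ad.urep with hU
  set a := mat A with ha
  have nXf : ∀ i, ‖X (f i)‖ = α i := fun i => by
    rw [← hAX, hA, norm_smul, f.orthonormal.1 i]; simp [hα i]
  have na : ‖a‖ ^ 2 = N := by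
    rw [ha, mat_norm]; simp only [hAX, hX, hN]
  have nα : ∑ i, α i ^ 2 = N := by
    simp only [← nXf]; rw [hs_eq f e]; simp only [he, hX, hN]
  have dt : U.Dt g a ≤ 66 * (68 * N - ∑ i, ∑ b : ZMod 17, ∑ η,
      (⟪m.c (g i ^ b.val) η • T (m.act (g i ^ b.val) η), x i b (T η)⟫_ℂ).re)
        + 68 * ((1 / 32) * N) := by
    refine (Finset.sum_le_sum (fun i _ => Finset.sum_le_sum (fun b _ =>
      ad_defect m (g i ^ b.val) X A hAs hAp hAX (x i b) (hx i b) T hX))).trans (le_of_eq ?_)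
    simp only [Finset.sum_add_distrib, ← Finset.mul_sum, Finset.sum_sub_distrib,
      Finset.sum_const, Finset.card_univ, ZMod.card, Fintype.card_fin, nsmul_eq_mul, ← hN]
    push_cast; ring
  let W : Submodule ℂ (EuclideanSpace ℂ (I × I)) :=
    { carrier := {y | ∀ i, U.ρ (g i) y = y}
      add_mem' := fun {y z} hy hz i => by rw [map_add, hy i, hz i]
      zero_mem' := fun i => map_zero _
      smul_mem' := fun c y hy i => by rw [map_smul, hy i] }
  set y := W.starProjection a with hy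
  have hyW : y ∈ W := W.starProjection_apply_mem a
  have hyo : a - y ∈ Wᗮ := W.sub_starProjection_mem_orthogonal a
  have yinv : ∀ γ, U.ρ γ y = y := U.inv_of_gens hgen y hyW
  have g1 := U.fd_gap hg (a - y) (fun z hz => (Submodule.mem_orthogonal _ _).1 hyo z hz)
  have g2 : U.Dt g (a - y) = U.Dt g a := by
    simp only [URep.Dt, map_sub, yinv, sub_sub_sub_cancel_right]
  rw [U.Dt_eq hg] at g2
  have yo : ⟪y, a - y⟫_ℂ = 0 := (Submodule.mem_orthogonal _ _).1 hyo y hyW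
  have g3 : ‖a‖ ^ 2 = ‖y‖ ^ 2 + ‖a - y‖ ^ 2 := by
    have := norm_add_sq (𝕜 := ℂ) y (a - y)
    rw [yo, add_sub_cancel] at this
    simpa using this
  have g4 : N / 2 ≤ ‖y‖ ^ 2 := by linarith
  have yact : ∀ γ p, y (m.ad.act γ p) = m.ad.c γ p * y p := fun γ p => by
    conv_lhs => rw [← yinv γ, hU, MonoAct.urep_apply, m.ad.act_inv]
  have yoff : ∀ η η', η ≠ η' → y (η, η') = 0 := by
    intro η η' hne
    obtain ⟨γ, h1, h2, h3⟩ := hsep η η' hne
    have h4 := yact γ (η, η')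
    have h5 : m.ad.act γ (η, η') = (η, η') := by simp [MonoAct.ad, h1, h2]
    rw [h5] at h4
    by_contra h6
    have h7 : m.c γ η * (starRingEnd ℂ) (m.c γ η') = 1 := (mul_eq_right₀ h6).1 h4.symm
    apply h3
    have := m.conj_c_mul γ η'
    linear_combination (m.c γ η') * h7 - (m.c γ η) * this
  have ydiag : ∀ η, (d : ℝ) * ‖y (η, η)‖ ^ 2 ≤ ‖y‖ ^ 2 := by
    intro η
    obtain ⟨F, hF⟩ := horb η
    rw [EuclideanSpace.norm_sq_eq]
    have hinj : Function.Injective (fun i => m.ad.act (F i) (η, η)) := fun i j hij =>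
      hF (congrArg Prod.fst hij)
    calc (d : ℝ) * ‖y (η, η)‖ ^ 2 = ∑ i : Fin d, ‖y (m.ad.act (F i) (η, η))‖ ^ 2 := by
          simp [yact, m.ad.norm_c]
      _ = ∑ p ∈ Finset.univ.map ⟨_, hinj⟩, ‖y p‖ ^ 2 := by rw [Finset.sum_map]; rfl
      _ ≤ _ := Finset.sum_le_sum_of_subset_of_nonneg (Finset.subset_univ _)
          (fun _ _ _ => sq_nonneg _)
  have tr : ∑ η, (a (η, η)).re = ∑ i, α i := by
    have t1 := LinearMap.trace_eq_sum_inner A e
    have t2 := LinearMap.trace_eq_sum_inner A f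
    have t3 := congrArg Complex.re (t1.symm.trans t2)
    rw [Complex.re_sum, Complex.re_sum] at t3
    convert t3 using 2 with η _ i _
    · rw [he, EuclideanSpace.inner_single_left]; simp [ha, mat_apply]
    · rw [hA, inner_smul_right, inner_self_eq_norm_sq_to_K, f.orthonormal.1 i]; simp
  have adiag : ∀ η, ‖a (η, η)‖ = (a (η, η)).re := by
    intro η
    have e1 : a (η, η) = ⟪e η, A (e η)⟫_ℂ := by
      rw [he, EuclideanSpace.inner_single_left]; simp [ha, mat_apply]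
    have e2 : (a (η, η)).im = 0 := by
      rw [e1, ← hAs]; exact hAs.im_inner_apply_self (e η)
    have e3 : 0 ≤ (a (η, η)).re := by rw [e1]; exact hAp _
    rw [← Complex.abs_re_eq_norm.2 e2, abs_of_nonneg e3]
  have g5 : √d * ‖y‖ ^ 2 ≤ ‖y‖ * ∑ i, α i := by
    have e1 : ‖y‖ ^ 2 = (⟪y, a⟫_ℂ).re := by
      rw [inner_sub_right, sub_eq_zero] at yo
      rw [yo]; exact (inner_self_eq_norm_sq (𝕜 := ℂ) y).symm
    rw [e1, ← tr, PiLp.inner_apply, Fintype.sum_prod_type, Complex.re_sum, Finset.mul_sum,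
      Finset.mul_sum]
    refine Finset.sum_le_sum (fun η _ => ?_)
    rw [Finset.sum_eq_single η (fun η' _ h' => by simp [yoff η η' (Ne.symm h')]) (by simp)]
    have e2 : √d * ‖y (η, η)‖ ≤ ‖y‖ := by
      rw [← sq_le_sq₀ (by positivity) (by positivity), mul_pow, Real.sq_sqrt (by positivity)]
      exact ydiag η
    have e3 : (⟪y (η, η), a (η, η)⟫_ℂ).re ≤ ‖y (η, η)‖ * ‖a (η, η)‖ :=
      re_inner_le_norm (𝕜 := ℂ) (y (η, η)) (a (η, η))
    rw [← adiag]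
    calc _ ≤ √d * (‖y (η, η)‖ * ‖a (η, η)‖) := by gcongr
      _ = (√d * ‖y (η, η)‖) * ‖a (η, η)‖ := by ring
      _ ≤ _ := by gcongr
  have g6 : (∑ i, α i) ^ 2 ≤ Module.finrank ℂ V * N := by
    let s := Finset.univ.filter (fun i => α i ≠ 0)
    have c1 : s.card ≤ Module.finrank ℂ V := by
      have li : LinearIndependent ℂ (fun i : s => X (f i)) :=
        linearIndependent_of_ne_zero_of_inner_eq_zero
          (fun i hi => (Finset.mem_filter.1 i.2).2 (by rw [← nXf, hi, norm_zero]))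
          (fun i j hij => hXo i j (fun h' => hij (Subtype.ext h')))
      simpa using li.fintype_card_le_finrank
    have c2 := sq_sum_le_card_mul_sum_sq (s := s) (f := α)
    rw [Finset.sum_filter_ne_zero] at c2
    have c3 : ∑ i ∈ s, α i ^ 2 ≤ N := by
      rw [← nα]
      exact Finset.sum_le_sum_of_subset_of_nonneg (Finset.subset_univ _) (fun _ _ _ => sq_nonneg _)
    exact c2.trans (mul_le_mul (by exact_mod_cast c1) c3 (by positivity) (by positivity))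
  have ypos : 0 < ‖y‖ := by
    by_contra h0
    have : ‖y‖ = 0 := le_antisymm (not_lt.1 h0) (norm_nonneg _)
    rw [this] at g4; linarith
  have g7 : √d * ‖y‖ ≤ ∑ i, α i := by
    refine le_of_mul_le_mul_left ?_ ypos
    linarith
  have g8 : d * ‖y‖ ^ 2 ≤ Module.finrank ℂ V * N := by
    have := pow_le_pow_left₀ (by positivity) g7 2
    rw [mul_pow, Real.sq_sqrt (by positivity)] at this
    linarith
  have g9 : (d : ℝ) * N ≤ (2 * Module.finrank ℂ V) * N := by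
    have := mul_le_mul_of_nonneg_left g4 (Nat.cast_nonneg d : (0 : ℝ) ≤ d)
    linarith
  exact_mod_cast le_of_mul_le_mul_right g9 hT

end Vale.Agent.P083
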