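import Vale.Agent.P083.Gap

open scoped InnerProductSpace
open Filter Topology

namespace Vale.Agent.P083

lemma URep.fd_gap {G E : Type*} [Group G] [NormedAddCommGroup E] [InnerProductSpace ℂ E]
    [FiniteDimensional ℂ E] (U : URep G E) {g : Fin 4 → G} (hg : Gens g) (ξ : E)
    (hξ : ∀ y, (∀ i, U.ρ (g i) y = y) → ⟪y, ξ⟫_ℂ = 0) : ‖ξ‖ ^ 2 ≤ 4 * U.D g ξ := by
  have hs : (U.Lap g).IsSymmetric := U.Lap_symm hg
  have h1 : ξ ∈ (LinearMap.range (U.Lap g))ᗮᗮ := by
    rw [hs.orthogonal_range, Submodule.mem_orthogonal]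
    intro y hy
    apply hξ
    intro i
    have h0 : U.D g y = 0 := by
      rw [← U.Lap_inner hg, LinearMap.mem_ker.1 hy]; simp
    have h2 := (Finset.sum_eq_zero_iff_of_nonneg (fun _ _ => sq_nonneg _)).1 h0 i
      (Finset.mem_univ _)
    have h3 : y = U.P (g i) y := by
      rw [← sub_eq_zero]; simpa using h2
    have h4 := U.ρ_mul_P (hg.ord i) 1
    rw [ZMod.val_one, pow_one] at h4
    rw [h3, ← Module.End.mul_apply, h4]
  rw [Submodule.orthogonal_orthogonal] at h1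
  obtain ⟨ζ, hζ⟩ := h1
  have h2 := U.gap hg ζ
  have h3 : ‖ξ‖ ^ 2 ≤ (1 / 8) * U.D g ζ + 2 * U.D g ξ := by
    rw [← @inner_self_eq_norm_sq ℂ]
    nth_rewrite 1 [← hζ]
    rw [U.Lap_apply, sum_inner, map_sum, URep.D, URep.D, Finset.mul_sum, Finset.mul_sum,
      ← Finset.sum_add_distrib]
    refine Finset.sum_le_sum (fun i _ => ?_)
    have z : U.P (g i) (ζ - U.P (g i) ζ) = 0 := by
      rw [map_sub, ← Module.End.mul_apply, U.P_mul_P (hg.ord i), sub_self]
    have e : ⟪ζ - U.P (g i) ζ, ξ⟫_ℂ = ⟪ζ - U.P (g i) ζ, ξ - U.P (g i) ξ⟫_ℂ := by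
      rw [inner_sub_right, ← U.P_symm (hg.ord i), z, inner_zero_left, sub_zero]
    rw [e]
    have := re_inner_le_norm (𝕜 := ℂ) (ζ - U.P (g i) ζ) (ξ - U.P (g i) ξ)
    nlinarith [sq_nonneg (‖ζ - U.P (g i) ζ‖ - 4 * ‖ξ - U.P (g i) ξ‖)]
  rw [hζ] at h2
  linarith

lemma exists_ulim (ω : Ultrafilter ℕ) (f : ℕ → ℂ) (C : ℝ) (h : ∀ j, ‖f j‖ ≤ C) :
    ∃ a, Tendsto f ω (𝓝 a) := by
  obtain ⟨a, -, ha⟩ := (isCompact_closedBall (0 : ℂ) C).ultrafilter_le_nhds (ω.map f)
    (by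
      rw [le_principal_iff, Ultrafilter.coe_map, mem_map]
      exact Eventually.of_forall (fun j => by simpa using h j))
  exact ⟨a, ha⟩

/-- the space carrying the limit form -/
abbrev LimSp (G : Type) : Type := G →₀ ℂ

/-- left translation -/
noncomputable def leftReg (G : Type) [Group G] : G →* Module.End ℂ (LimSp G) where
  toFun γ := Finsupp.lmapDomain ℂ ℂ (fun x => γ * x)
  map_one' := by ext; simp
  map_mul' γ γ' := by ext; simp [mul_assoc]

theorem ultra_gap {G : Type} [Group G] {g : Fin 4 → G} (hg : Gens g) (ω : Ultrafilter ℕ)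
    (E : ℕ → Type) [∀ j, NormedAddCommGroup (E j)] [∀ j, InnerProductSpace ℂ (E j)]
    (σ : ∀ j, G → (E j →ₗ[ℂ] E j))
    (hb : ∀ γ, ∃ C : ℝ, 0 ≤ C ∧ ∀ j x, ‖σ j γ x‖ ≤ C * ‖x‖)
    (hmul : ∀ γ γ', ∃ e : ℕ → ℝ, Tendsto e ω (𝓝 0) ∧
      ∀ j x, ‖σ j (γ * γ') x - σ j γ (σ j γ' x)‖ ≤ e j * ‖x‖)
    (hinner : ∀ γ, ∃ e : ℕ → ℝ, Tendsto e ω (𝓝 0) ∧
      ∀ j x y, ‖⟪σ j γ x, σ j γ y⟫_ℂ - ⟪x, y⟫_ℂ‖ ≤ e j * (‖x‖ * ‖y‖))
    (hone : ∃ e : ℕ → ℝ, Tendsto e ω (𝓝 0) ∧ ∀ j x, ‖σ j 1 x - x‖ ≤ e j * ‖x‖)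
    (T : ∀ j, E j) (hT : ∀ j, ‖T j‖ ≤ 1)
    (hT' : ∀ᶠ j in (ω : Filter ℕ), ‖T j‖ = 1 ∧
      ∑ i, ∑ b : ZMod 17, ‖σ j (g i ^ b.val) (T j) - T j‖ ^ 2 ≤ 1 / 200)
    {ε : ℝ} (hε : 0 < ε) :
    ∀ᶠ j in (ω : Filter ℕ), ∃ S : E j, 1 / 2 ≤ ‖S‖ ∧
      ∑ i, ∑ b : ZMod 17, ‖σ j (g i ^ b.val) S - S‖ ^ 2 ≤ ε := by
  classical
  let ev : ∀ j, LimSp G →ₗ[ℂ] E j := fun j =>
    Finsupp.linearCombination ℂ (fun γ => σ j γ (T j))
  have ev_single : ∀ j γ (c : ℂ), ev j (Finsupp.single γ c) = c • σ j γ (T j) := fun j γ c =>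
    Finsupp.linearCombination_single ℂ c γ
  have evb : ∀ m : LimSp G, ∃ C : ℝ, 0 ≤ C ∧ ∀ j, ‖ev j m‖ ≤ C := by
    intro m
    induction m using Finsupp.induction_linear with
    | zero => exact ⟨0, le_rfl, fun j => by simp⟩
    | add f h hf hh =>
      obtain ⟨C, hC, h1⟩ := hf
      obtain ⟨C', hC', h2⟩ := hh
      exact ⟨C + C', by positivity, fun j => by
        rw [map_add]; exact (norm_add_le _ _).trans (add_le_add (h1 j) (h2 j))⟩
    | single γ c =>
      obtain ⟨C, hC, h1⟩ := hb γ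
      refine ⟨‖c‖ * C, by positivity, fun j => ?_⟩
      rw [ev_single, norm_smul]
      have := h1 j (T j)
      have := hT j
      gcongr
      nlinarith
  have exl : ∀ m m' : LimSp G, ∃ a, Tendsto (fun j => ⟪ev j m, ev j m'⟫_ℂ) ω (𝓝 a) := by
    intro m m'
    obtain ⟨C, hC, h1⟩ := evb m
    obtain ⟨C', hC', h2⟩ := evb m'
    exact exists_ulim ω _ (C * C') (fun j => (norm_inner_le_norm _ _).trans
      (mul_le_mul (h1 j) (h2 j) (norm_nonneg _) hC))
  choose ip hip using exl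
  let core : PreInnerProductSpace.Core ℂ (LimSp G) :=
    { inner := ip
      conj_inner_symm := fun x y => by
        refine tendsto_nhds_unique ((Complex.continuous_conj.tendsto _).comp (hip y x)) ?_
        exact (hip x y).congr (fun j => (inner_conj_symm _ _).symm)
      re_inner_nonneg := fun x =>
        ge_of_tendsto' ((Complex.continuous_re.tendsto _).comp (hip x x))
          (fun j => inner_self_nonneg (𝕜 := ℂ))
      add_left := fun x y z => by
        refine tendsto_nhds_unique (hip (x + y) z) ?_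
        exact ((hip x z).add (hip y z)).congr (fun j => by rw [map_add, inner_add_left])
      smul_left := fun x y r => by
        refine tendsto_nhds_unique (hip (r • x) y) ?_
        exact ((hip x y).const_mul _).congr (fun j => by rw [map_smul, inner_smul_left]) }
  let : SeminormedAddCommGroup (LimSp G) :=
    InnerProductSpace.Core.toSeminormedAddCommGroup (c := core)
  let : InnerProductSpace ℂ (LimSp G) := InnerProductSpace.ofCore core
  have hip' : ∀ m m' : LimSp G, Tendsto (fun j => ⟪ev j m, ev j m'⟫_ℂ) ω (𝓝 ⟪m, m'⟫_ℂ) := hip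
  have hnorm : ∀ m : LimSp G, Tendsto (fun j => ‖ev j m‖) ω (𝓝 ‖m‖) := by
    intro m
    rw [@norm_eq_sqrt_re_inner ℂ]
    exact ((Real.continuous_sqrt.tendsto _).comp
      ((RCLike.continuous_re.tendsto _).comp (hip' m m))).congr
      (fun j => (@norm_eq_sqrt_re_inner ℂ _ _ _ _ _).symm)
  let ρ : G →* Module.End ℂ (LimSp G) := leftReg G
  have ρ_single : ∀ γ γ' (c : ℂ), ρ γ (Finsupp.single γ' c) = Finsupp.single (γ * γ') c :=
    fun γ γ' c => by simp [ρ, leftReg]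
  have evρ : ∀ γ (m : LimSp G),
      Tendsto (fun j => ‖ev j (ρ γ m) - σ j γ (ev j m)‖) ω (𝓝 0) := by
    intro γ m
    induction m using Finsupp.induction_linear with
    | zero => simp
    | add f h hf hh =>
      refine squeeze_zero (fun _ => norm_nonneg _) (fun j => ?_) (by simpa using hf.add hh)
      rw [map_add, map_add, map_add, map_add, add_sub_add_comm]
      exact norm_add_le _ _
    | single γ' c =>
      obtain ⟨e, he, h1⟩ := hmul γ γ'
      refine squeeze_zero (fun _ => norm_nonneg _) (fun j => ?_)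
        (by simpa using he.abs.const_mul ‖c‖)
      rw [ρ_single, ev_single, ev_single, map_smul, ← smul_sub, norm_smul]
      gcongr
      calc _ ≤ e j * ‖T j‖ := h1 j (T j)
        _ ≤ |e j| * 1 := mul_le_mul (le_abs_self _) (hT j) (norm_nonneg _) (abs_nonneg _)
        _ = _ := mul_one _
  let U : URep G (LimSp G) :=
    { ρ := ρ
      inner_map := fun γ x y => by
        refine tendsto_nhds_unique (hip' _ _) ?_
        obtain ⟨e, he, h1⟩ := hinner γ
        obtain ⟨C, hC, h2⟩ := hb γ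
        obtain ⟨Cx, hCx, hx⟩ := evb x
        obtain ⟨Cy, hCy, hy⟩ := evb y
        obtain ⟨Cy', hCy', hy'⟩ := evb (ρ γ y)
        have key : Tendsto (fun j => ⟪ev j (ρ γ x), ev j (ρ γ y)⟫_ℂ - ⟪ev j x, ev j y⟫_ℂ) ω
            (𝓝 0) := by
          rw [tendsto_zero_iff_norm_tendsto_zero]
          refine squeeze_zero (fun _ => norm_nonneg _) (fun j => ?_)
            (by simpa using (((evρ γ x).mul_const Cy').add
              ((evρ γ y).const_mul (C * Cx))).add (he.abs.mul_const (Cx * Cy)))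
          have e1 : ⟪ev j (ρ γ x), ev j (ρ γ y)⟫_ℂ - ⟪ev j x, ev j y⟫_ℂ
              = ⟪ev j (ρ γ x) - σ j γ (ev j x), ev j (ρ γ y)⟫_ℂ
                + ⟪σ j γ (ev j x), ev j (ρ γ y) - σ j γ (ev j y)⟫_ℂ
                + (⟪σ j γ (ev j x), σ j γ (ev j y)⟫_ℂ - ⟪ev j x, ev j y⟫_ℂ) := by
            rw [inner_sub_left, inner_sub_right]; ring
          rw [e1]
          refine (norm_add₃_le).trans (add_le_add (add_le_add ?_ ?_) ?_)
          · exact (norm_inner_le_norm _ _).trans (by gcongr; exact hy' j)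
          · refine (norm_inner_le_norm _ _).trans ?_
            gcongr
            exact (h2 j _).trans (by gcongr; exact hx j)
          · refine (h1 j _ _).trans ?_
            exact mul_le_mul (le_abs_self _) (mul_le_mul (hx j) (hy j) (norm_nonneg _) hCx)
              (by positivity) (abs_nonneg _)
        simpa using key.add (hip' x y) }
  have hDt : ∀ m : LimSp G, Tendsto (fun j => ∑ i, ∑ b : ZMod 17,
      ‖σ j (g i ^ b.val) (ev j m) - ev j m‖ ^ 2) ω (𝓝 (U.Dt g m)) := by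
    intro m
    refine tendsto_finsetSum _ (fun i _ => tendsto_finsetSum _ (fun b _ => Tendsto.pow ?_ 2))
    have h1 := hnorm (ρ (g i ^ b.val) m - m)
    have h2 := evρ (g i ^ b.val) m
    have h3 : Tendsto (fun j => ‖σ j (g i ^ b.val) (ev j m) - ev j m‖
        - ‖ev j (ρ (g i ^ b.val) m - m)‖) ω (𝓝 0) := by
      rw [tendsto_zero_iff_norm_tendsto_zero]
      refine squeeze_zero (fun _ => norm_nonneg _) (fun j => ?_) h2
      refine (abs_norm_sub_norm_le _ _).trans (le_of_eq ?_)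
      rw [map_sub, sub_sub_sub_cancel_right, norm_sub_rev]
    simpa using h3.add h1
  obtain ⟨e, he, h1⟩ := hone
  let e0 : LimSp G := Finsupp.single 1 1
  have he0 : Tendsto (fun j => ‖ev j e0 - T j‖) ω (𝓝 0) := by
    refine squeeze_zero (fun _ => norm_nonneg _) (fun j => ?_) (by simpa using he.abs)
    rw [ev_single, one_smul]
    calc _ ≤ e j * ‖T j‖ := h1 j (T j)
      _ ≤ |e j| * 1 := mul_le_mul (le_abs_self _) (hT j) (norm_nonneg _) (abs_nonneg _)
      _ = _ := mul_one _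
  have n0 : ‖e0‖ = 1 := by
    refine tendsto_nhds_unique (hnorm e0) ?_
    have h3 : Tendsto (fun j => ‖ev j e0‖ - ‖T j‖) ω (𝓝 0) := by
      rw [tendsto_zero_iff_norm_tendsto_zero]
      exact squeeze_zero (fun _ => norm_nonneg _) (fun j => abs_norm_sub_norm_le _ _) he0
    have h4 : Tendsto (fun j => ‖T j‖) ω (𝓝 1) :=
      tendsto_const_nhds.congr' (hT'.mono (fun j hj => hj.1.symm))
    simpa using h3.add h4
  have d0 : U.Dt g e0 ≤ 1 / 200 := by
    have h3 : Tendsto (fun j => ∑ i, ∑ b : ZMod 17,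
        ‖σ j (g i ^ b.val) (T j) - T j‖ ^ 2) ω (𝓝 (U.Dt g e0)) := by
      refine tendsto_finsetSum _ (fun i _ => tendsto_finsetSum _ (fun b _ => Tendsto.pow ?_ 2))
      have h1 := hnorm (ρ (g i ^ b.val) e0 - e0)
      have h3 : Tendsto (fun j => ‖σ j (g i ^ b.val) (T j) - T j‖
          - ‖ev j (ρ (g i ^ b.val) e0 - e0)‖) ω (𝓝 0) := by
        rw [tendsto_zero_iff_norm_tendsto_zero]
        refine squeeze_zero (fun _ => norm_nonneg _) (fun j => ?_) he0
        refine (abs_norm_sub_norm_le _ _).trans (le_of_eq ?_)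
        rw [map_sub, ρ_single, ev_single, one_smul, mul_one, sub_sub_sub_cancel_left]
      simpa using h3.add h1
    exact le_of_tendsto h3 (hT'.mono (fun j hj => hj.2))
  rw [U.Dt_eq hg] at d0
  obtain ⟨n, hn⟩ := exists_pow_lt_of_lt_one (show 0 < ε from hε) (show (15 / 16 : ℝ) < 1 by norm_num)
  have h2 := U.D_pow hg n e0
  have h3 := U.pow_sub hg n e0 (r := 1 / 64) (by norm_num) (by linarith)
  have h4 : U.Dt g ((U.M g ^ n) e0) < ε := by
    rw [U.Dt_eq hg]
    have := U.D_nonneg (g := g) e0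
    have h5 : (0 : ℝ) ≤ (15 / 16) ^ n := by positivity
    nlinarith
  have h5 : 1 / 2 < ‖(U.M g ^ n) e0‖ := by
    have h6 : (0 : ℝ) ≤ (31 / 32) ^ n := by positivity
    have h7 := norm_sub_norm_le e0 ((U.M g ^ n) e0)
    rw [norm_sub_rev] at h7
    linarith
  filter_upwards [(hDt _).eventually (gt_mem_nhds h4), (hnorm _).eventually (lt_mem_nhds h5)]
    with j hj1 hj2
  exact ⟨_, hj2.le, hj1.le⟩

end Vale.Agent.P083
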